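import Vale.Agent.P032.S5.H830.StateF

/-!
# P032, carriers: states at bases (286's interface)

`T` : palettes of a closed cover of the plane by six sets, any order. A *face* at `x` is a three-set
`s ⊆ T x` containing no palette of a point of the unit circle about `x`. `Ex i j` : exceptional points
of `T_i ∩ T_j` (the forbidden pair of a harmless point; the pinched pair of a three-coloured point). A
*base* is a face without exceptional pair.
-/

open Set Filter Topology Metric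

noncomputable section

namespace Vale.Agent.P032.S5

/-- a three-face at `x` -/
def Face (T : ℂ → Set (Fin 6)) (x : ℂ) (s : Set (Fin 6)) : Prop :=
  s.ncard = 3 ∧ s ⊆ T x ∧ ∀ y, dist y x = 1 → ¬ T y ⊆ s

/-- a face without exceptional pair -/
def Base (T : ℂ → Set (Fin 6)) (Ex : Fin 6 → Fin 6 → Set ℂ) (x : ℂ) (s : Set (Fin 6)) : Prop :=
  Face T x s ∧ ∀ i ∈ s, ∀ j ∈ s, i ≠ j → x ∉ Ex i j

/-- the properties of the functions `lam` -/
structure LamX (T : ℂ → Set (Fin 6)) (Ex : Fin 6 → Fin 6 → Set ℂ) (B : Set ℂ)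
    (lam : Fin 6 → ℂ → Fin 6 → Fin 6 → ZMod 2) : Prop where
  symm : ∀ a x b c, lam a x b c = lam a x c b
  diag : ∀ a x b, lam a x b b = 0
  self : ∀ a x b, lam a x a b = 0
  loc : ∀ a, ∀ x ∈ B, a ∈ T x → ∀ᶠ x' in 𝓝[{y | a ∈ T y}] x, lam a x' = lam a x
  euler : ∀ a, ∀ x ∈ B, a ∈ T x → ∀ b, b ≠ a → ∑ c, lam a x b c = 0
  agree : ∀ x ∈ B, ∀ a ∈ T x, ∀ b ∈ T x, a ≠ b → x ∉ Ex a b → ∀ c, lam a x b c = lam b x a c
  supp : ∀ x ∈ B, ∀ a ∈ T x, ∀ b c, a ≠ b → a ≠ c → b ≠ c → lam a x b c ≠ 0 →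
    ∃ u ∈ closedBall x 1, Face T u {a, b, c} ∧
      ¬ ∀ᶠ w in 𝓝[closedBall x 1 \ {u}] u, a ∉ T w
  lens0 : ∀ x ∈ B, ∀ S : Set (Fin 6), ∀ t b c, t ≠ b → t ≠ c → b ≠ c → Base T Ex x S →
    ({t, b, c} : Set (Fin 6)) ≠ S → ({t, b, c} : Set (Fin 6))ᶜ ≠ S →
    ({t, b, c} : Set (Fin 6)) ∩ S = {t} → ∀ u u', Face T u {t, b, c} →
    Face T u' ({t, b, c} : Set (Fin 6))ᶜ → dist u x = 1 → dist u' x = 1 → dist u u' = 2 →
    (¬ ∀ᶠ w in 𝓝[closedBall x 1 \ {u}] u, t ∉ T w) → lam t x b c = 0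
  wind : ∀ x ∈ B, ∀ a b c, a ≠ b → a ≠ c → b ≠ c → Base T Ex x {a, b, c} → ∀ d e, d ≠ e →
    d ∉ ({a, b, c} : Set (Fin 6)) → e ∉ ({a, b, c} : Set (Fin 6)) →
      lam a x d e + lam b x d e + lam c x d e = 1

/-- the geometric inputs -/
structure GeoX (T : ℂ → Set (Fin 6)) (Ex : Fin 6 → Fin 6 → Set ℂ) (B D : Set ℂ) : Prop where
  sub : ∀ x ∈ B, closedBall x 1 ⊆ D
  exs : ∀ i j, Ex i j = Ex j i
  exc : ∀ x ∈ B, ∀ i j, i ≠ j → i ∈ T x → j ∈ T x → x ∈ Ex i j →
    ∀ᶠ y in 𝓝 x, i ∈ T y → j ∈ T y → T y = T x ∧ y ∈ Ex i j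
  exo : ∀ x ∈ B, ∀ i j, i ≠ j → i ∈ T x → j ∈ T x → x ∉ Ex i j →
    ∀ᶠ y in 𝓝 x, i ∈ T y → j ∈ T y → y ∉ Ex i j
  pal : ∀ x ∈ B, ((T x).ncard ≤ 2 ∧ ∀ i ∈ T x, ∀ j ∈ T x, i ≠ j → x ∉ Ex i j) ∨
    Base T Ex x (T x) ∨
    (∃ i j k, i ≠ j ∧ i ≠ k ∧ j ≠ k ∧ T x = {i, j, k} ∧ x ∈ Ex i j ∧ x ∉ Ex i k ∧ x ∉ Ex j k) ∨
    ∃ a b c d, [a, b, c, d].Nodup ∧ T x = {a, b, c, d} ∧ x ∈ Ex a b ∧ Base T Ex x {a, c, d} ∧
      Base T Ex x {b, c, d}
  comp : ∀ u ∈ D, ∀ u' ∈ D, ∀ s : Set (Fin 6), Face T u s → Face T u' sᶜ → 2 ≤ dist u u'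

variable {T : ℂ → Set (Fin 6)} {Ex : Fin 6 → Fin 6 → Set ℂ} {B D : Set ℂ}
  {lam : Fin 6 → ℂ → Fin 6 → Fin 6 → ZMod 2}

/-- at one base the family satisfies `LamB` for the constant palette -/
theorem LamX.toB (h : LamX T Ex B lam) {x : ℂ} (hx : x ∈ B) {S : Set (Fin 6)}
    (hS : Base T Ex x S) : LamB (fun _ => S) {x} (fun a _ => lam a x) where
  symm := fun a _ b c => h.symm a x b c
  diag := fun a _ b => h.diag a x b
  self := fun a _ b => h.self a x b
  loc := fun a y _ _ => Eventually.of_forall fun _ => rfl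
  euler := fun a y _ ha b hb => h.euler a x hx (hS.1.2.1 ha) b hb
  agree := fun y _ a ha b hb c => by
    by_cases hab : a = b
    · rw [hab]
    · exact h.agree x hx a (hS.1.2.1 ha) b (hS.1.2.1 hb) hab (hS.2 a ha b hb hab) c
  wind := fun y _ a b c hab hac hbc hK d e hde hd he =>
    h.wind x hx a b c hab hac hbc (by rw [← hK]; exact hS) d e hde (by rw [← hK]; exact hd)
      (by rw [← hK]; exact he)

/-- the state at `(x, S)` -/
def zb (lam : Fin 6 → ℂ → Fin 6 → Fin 6 → ZMod 2) (S : Set (Fin 6)) (x : ℂ)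
    (p q r : Fin 6) : ZMod 2 := zz (fun _ => S) lam x p q r

theorem zb_eq (S : Set (Fin 6)) (x : ℂ) (p q r : Fin 6) :
    zb lam S x p q r = zz (fun _ => S) (fun a _ => lam a x) x p q r := rfl

theorem zb_of_mem {S : Set (Fin 6)} {x : ℂ} {p : Fin 6} (hp : p ∈ S) (q r : Fin 6) :
    zb lam S x p q r = lam p x q r := zz_of_mem (K := fun _ => S) hp q r

theorem zb_compl {S : Set (Fin 6)} {x : ℂ} {d e f : Fin 6} (hd : d ∉ S) (he : e ∉ S)
    (hf : f ∉ S) (hde : d ≠ e) (hdf : d ≠ f) (hef : e ≠ f) : zb lam S x d e f = 1 :=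
  zz_compl (K := fun _ => S) hd he hf hde hdf hef

/-- `lam a` is constant on connected sets of points of colour `a` -/
theorem LamX.lam_const (h : LamX T Ex B lam) {a : Fin 6} {C : Set ℂ} (hC : IsPreconnected C)
    (hCB : C ⊆ B) (hCa : ∀ z ∈ C, a ∈ T z) {x y : ℂ} (hx : x ∈ C) (hy : y ∈ C) :
    lam a x = lam a y := by
  let _ : TopologicalSpace (Fin 6 → Fin 6 → ZMod 2) := ⊥
  have : DiscreteTopology (Fin 6 → Fin 6 → ZMod 2) := ⟨rfl⟩
  refine hC.constant (f := lam a) (fun z hz => ?_) hx hy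
  refine tendsto_const_nhds.congr' ?_
  filter_upwards [(h.loc a z (hCB hz) (hCa z hz)).filter_mono (nhdsWithin_mono z hCa)] with w hw
  exact hw.symm

section rule

variable (h : LamX T Ex B lam) {C : Set ℂ} (hC : IsPreconnected C) (hCB : C ⊆ B)
include h hC hCB

theorem LamX.zb_eq_of_mem {i : Fin 6} (hCi : ∀ z ∈ C, i ∈ T z) {x y : ℂ} (hx : x ∈ C) (hy : y ∈ C)
    {S S' : Set (Fin 6)} (hS : i ∈ S) (hS' : i ∈ S') (q r : Fin 6) :
    zb lam S x i q r = zb lam S' y i q r := by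
  rw [zb_of_mem hS, zb_of_mem hS', h.lam_const hC hCB hCi hx hy]

/-- the difference of the states at two bases of a connected subset of `T_i ∩ T_j` -/
theorem LamX.flat_zb {i j k l m n : Fin 6} (hnd : [i, j, k, l, m, n].Nodup)
    (hCi : ∀ z ∈ C, i ∈ T z) (hCj : ∀ z ∈ C, j ∈ T z) {x y : ℂ} (hx : x ∈ C)
    (hy : y ∈ C) {S S' : Set (Fin 6)} (hS : Base T Ex x S) (hS' : Base T Ex y S')
    (hiS : i ∈ S) (hjS : j ∈ S) (hiS' : i ∈ S') (hjS' : j ∈ S') :
    (zb lam S x k l m + zb lam S' y k l m = zb lam S x l m n + zb lam S' y l m n) ∧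
    (zb lam S x k l n + zb lam S' y k l n = zb lam S x l m n + zb lam S' y l m n) ∧
    (zb lam S x k m n + zb lam S' y k m n = zb lam S x l m n + zb lam S' y l m n) := by
  have hB1 := h.toB (hCB hx) hS
  have hB2 := h.toB (hCB hy) hS'
  refine flat (D := fun p q r => zb lam S x p q r + zb lam S' y p q r) hnd (fun p q r => ?_)
    (fun p q r => ?_) (fun p q => ?_) (fun b c hbc => ?_) (fun q r => ?_) (fun q r => ?_)
  · show _ + _ = _ + _
    rw [zb_eq, zb_eq, zb_eq, zb_eq, hB1.zz_swap12 rfl, hB2.zz_swap12 rfl]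
  · show _ + _ = _ + _
    rw [zb_eq, zb_eq, zb_eq, zb_eq, hB1.zz_swap23 rfl, hB2.zz_swap23 rfl]
  · show _ + _ = _
    rw [zb_eq, zb_eq, hB1.zz_diag, hB2.zz_diag, add_zero]
  · simp only [zb_eq]
    rw [Finset.sum_add_distrib, hB1.zz_cycle rfl hS.1.1 hbc, hB2.zz_cycle rfl hS'.1.1 hbc,
      add_zero]
  · show _ + _ = _
    rw [h.zb_eq_of_mem hC hCB hCi hx hy hiS hiS', CharTwo.add_self_eq_zero]
  · show _ + _ = _
    rw [h.zb_eq_of_mem hC hCB hCj hx hy hjS hjS', CharTwo.add_self_eq_zero]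

/-- **Rule, same palette**: the states agree -/
theorem LamX.rule_same {i j k l m n : Fin 6} (hnd : [i, j, k, l, m, n].Nodup)
    (hCi : ∀ z ∈ C, i ∈ T z) (hCj : ∀ z ∈ C, j ∈ T z) {x y : ℂ} (hx : x ∈ C)
    (hy : y ∈ C) {S S' : Set (Fin 6)} (hS : Base T Ex x S) (hS' : Base T Ex y S')
    (hKx : S = {i, j, k}) (hKy : S' = {i, j, k}) :
    zb lam S x l m n = zb lam S' y l m n ∧ zb lam S x k l m = zb lam S' y k l m ∧
    zb lam S x k l n = zb lam S' y k l n ∧ zb lam S x k m n = zb lam S' y k m n := by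
  obtain ⟨⟨hij, hik, hil, him, hin⟩, ⟨hjk, hjl, hjm, hjn⟩, ⟨hkl, hkm, hkn⟩, ⟨hlm, hln⟩, hmn⟩ :=
    nodup6 hnd
  have hl : l ∉ ({i, j, k} : Set (Fin 6)) := by simp [hil.symm, hjl.symm, hkl.symm]
  have hm : m ∉ ({i, j, k} : Set (Fin 6)) := by simp [him.symm, hjm.symm, hkm.symm]
  have hn : n ∉ ({i, j, k} : Set (Fin 6)) := by simp [hin.symm, hjn.symm, hkn.symm]
  obtain ⟨e1, e2, e3⟩ := h.flat_zb hC hCB hnd hCi hCj hx hy hS hS' (by rw [hKx]; simp)
    (by rw [hKx]; simp) (by rw [hKy]; simp) (by rw [hKy]; simp)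
  have hx1 : zb lam S x l m n = 1 :=
    zb_compl (by rw [hKx]; exact hl) (by rw [hKx]; exact hm) (by rw [hKx]; exact hn) hlm hln hmn
  have hy1 : zb lam S' y l m n = 1 :=
    zb_compl (by rw [hKy]; exact hl) (by rw [hKy]; exact hm) (by rw [hKy]; exact hn) hlm hln hmn
  have h0 : zb lam S x l m n + zb lam S' y l m n = 0 := by
    rw [hx1, hy1]; decide
  rw [h0, CharTwo.add_eq_zero] at e1 e2 e3
  exact ⟨by rw [hx1, hy1], e1, e2, e3⟩

/-- **Rule, different palettes**: the states differ exactly by the triples avoiding `i`, `j` -/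
theorem LamX.rule_diff {i j k l m n : Fin 6}
    (hnd : [i, j, k, l, m, n].Nodup)
    (hCi : ∀ z ∈ C, i ∈ T z) (hCj : ∀ z ∈ C, j ∈ T z) {x y : ℂ} (hx : x ∈ C)
    (hy : y ∈ C) {S S' : Set (Fin 6)} (hS : Base T Ex x S)
    (hS' : Base T Ex y S') (hKx : S = {i, j, k}) (hKy : S' = {i, j, l})
    (near : (∀ u, dist u x ≤ 1 → ¬ Face T u S'ᶜ) ∨ (∀ u, dist u y ≤ 1 → ¬ Face T u Sᶜ)) :
    zb lam S x l m n = zb lam S' y l m n + 1 ∧ zb lam S x k l m = zb lam S' y k l m + 1 ∧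
    zb lam S x k l n = zb lam S' y k l n + 1 ∧ zb lam S x k m n = zb lam S' y k m n + 1 := by
  obtain ⟨⟨hij, hik, hil, him, hin⟩, ⟨hjk, hjl, hjm, hjn⟩, ⟨hkl, hkm, hkn⟩, ⟨hlm, hln⟩, hmn⟩ :=
    nodup6 hnd
  have hxB := hCB hx
  have hyB := hCB hy
  obtain ⟨e1, e2, e3⟩ := h.flat_zb hC hCB hnd hCi hCj hx hy hS hS' (by rw [hKx]; simp)
    (by rw [hKx]; simp) (by rw [hKy]; simp) (by rw [hKy]; simp)
  have hall : ∀ a, a = i ∨ a = j ∨ a = k ∨ a = l ∨ a = m ∨ a = n := by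
    intro a
    have h1 : (Finset.univ : Finset (Fin 6)) = [i, j, k, l, m, n].toFinset :=
      (Finset.eq_univ_of_card _ (by rw [List.toFinset_card_of_nodup hnd]; rfl)).symm
    have h2 := Finset.mem_univ a
    rw [h1] at h2
    simpa using h2
  -- the complements of the palettes
  have hy1 : zb lam S' y k m n = 1 := by
    refine zb_compl ?_ ?_ ?_ hkm hkn hmn
    · rw [hKy]; simp [hik.symm, hjk.symm, hkl]
    · rw [hKy]; simp [him.symm, hjm.symm, hlm.symm]
    · rw [hKy]; simp [hin.symm, hjn.symm, hln.symm]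
  have hx1 : zb lam S x l m n = 1 := by
    refine zb_compl ?_ ?_ ?_ hlm hln hmn
    · rw [hKx]; simp [hil.symm, hjl.symm, hkl.symm]
    · rw [hKx]; simp [him.symm, hjm.symm, hkm.symm]
    · rw [hKx]; simp [hin.symm, hjn.symm, hkn.symm]
  have hD : zb lam S x l m n + zb lam S' y l m n = 1 := by
    rcases near with hne | hne
    · have hx0 : zb lam S x k m n = 0 := by
        by_contra hne0
        have hkS : k ∈ S := by rw [hKx]; simp
        rw [zb_of_mem hkS] at hne0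
        obtain ⟨u, hu, hFu, -⟩ := h.supp x hxB k (hS.1.2.1 hkS) m n hkm hkn hmn hne0
        refine hne u hu ?_
        have hcomp : S'ᶜ = {k, m, n} := by
          rw [hKy]
          ext a
          simp only [Set.mem_insert_iff, Set.mem_singleton_iff, Set.mem_compl_iff, not_or]
          constructor
          · rintro ⟨h1, h2, h3⟩
            rcases hall a with h4 | h4 | h4 | h4 | h4 | h4
            · exact absurd h4 h1
            · exact absurd h4 h2
            · exact Or.inl h4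
            · exact absurd h4 h3
            · exact Or.inr (Or.inl h4)
            · exact Or.inr (Or.inr h4)
          · rintro (rfl | rfl | rfl)
            · exact ⟨hik.symm, hjk.symm, hkl⟩
            · exact ⟨him.symm, hjm.symm, hlm.symm⟩
            · exact ⟨hin.symm, hjn.symm, hln.symm⟩
        rw [hcomp]
        exact hFu
      rw [← e3, hx0, hy1, zero_add]
    · have hy0 : zb lam S' y l m n = 0 := by
        by_contra hne0
        have hlS : l ∈ S' := by rw [hKy]; simp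
        rw [zb_of_mem hlS] at hne0
        obtain ⟨u, hu, hFu, -⟩ := h.supp y hyB l (hS'.1.2.1 hlS) m n hlm hln hmn hne0
        refine hne u hu ?_
        have hcomp : Sᶜ = {l, m, n} := by
          rw [hKx]
          ext a
          simp only [Set.mem_insert_iff, Set.mem_singleton_iff, Set.mem_compl_iff, not_or]
          constructor
          · rintro ⟨h1, h2, h3⟩
            rcases hall a with h4 | h4 | h4 | h4 | h4 | h4
            · exact absurd h4 h1
            · exact absurd h4 h2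
            · exact absurd h4 h3
            · exact Or.inl h4
            · exact Or.inr (Or.inl h4)
            · exact Or.inr (Or.inr h4)
          · rintro (rfl | rfl | rfl)
            · exact ⟨hil.symm, hjl.symm, hkl.symm⟩
            · exact ⟨him.symm, hjm.symm, hkm.symm⟩
            · exact ⟨hin.symm, hjn.symm, hkn.symm⟩
        rw [hcomp]
        exact hFu
      rw [hx1, hy0, add_zero]
  rw [hD] at e1 e2 e3
  have key : ∀ a b : ZMod 2, a + b = 1 → a = b + 1 := by decide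
  exact ⟨key _ _ hD, key _ _ e1, key _ _ e2, key _ _ e3⟩

end rule

end Vale.Agent.P032.S5
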