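import Vale.Agent.P032.S5.H830.StateX
import Vale.Agent.P032.S5.H11.Mesh2

/-!
# P032, carriers: the ring hypothesis of `cech_endX`

from the odd rings about a face (all labellings off the face) and the local form of the palette at
the exceptional points of the circle.
-/

open Set Filter Topology Metric

noncomputable section

namespace Vale.Agent.P032.S5.EndX

open Vale.Agent.P032.Six Vale.Agent.P032.S5.End

variable {T : ℂ → Set (Fin 6)} {Ex : Fin 6 → Fin 6 → Set ℂ} {v : ℂ}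

/-- **ring hypothesis** in the existential form of `cech_endX` -/
theorem ring_of (usc : ∀ x, ∀ᶠ y in 𝓝 x, T y ⊆ T x) {S : Set (Fin 6)} (hv : Face T v S)
    {d e : Fin 6}
    (R1 : ∀ N : ℕ, ∃ n ≥ N, ∀ l : ℕ → Fin 6, (∀ k, l (k + n) = l k) →
      (∀ k : ℕ, l k ∈ T (v + cis (2 * Real.pi * k / n))) → (∀ k, l k ∉ S) →
      ∑ k ∈ Finset.range n, (if ({l k, l (k + 1)} : Finset (Fin 6)) = {d, e} then 1 else 0) =
        (1 : ZMod 2))
    (R2 : ∀ y, dist y v = 1 → ∀ i j, i ≠ j → i ∉ S → j ∉ S → i ∈ T y → j ∈ T y → y ∈ Ex i j →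
      ∃ t ∈ T y, t ∉ S ∧ ∀ᶠ y' in 𝓝 y, dist y' v = 1 → y' ≠ y → ∀ m ∈ T y', m ∈ S ∨ m = t) :
    ∀ δ > 0, ∀ N : ℕ, ∃ n ≥ N, ∃ l : ℕ → Fin 6, (∀ k, l (k + n) = l k) ∧
      (∀ k : ℕ, l k ∈ T (v + cis (2 * Real.pi * k / n))) ∧
      (∀ k, l k ∉ S) ∧
      (∀ k, l k ≠ l (k + 1) → ∃ w ∈ closedBall v 1, dist w (v + cis (2 * Real.pi * k / n)) < δ ∧
        l k ∈ T w ∧ l (k + 1) ∈ T w ∧ w ∉ Ex (l k) (l (k + 1))) ∧
      ∑ k ∈ Finset.range n, (if ({l k, l (k + 1)} : Finset (Fin 6)) = {d, e} then 1 else 0) =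
        (1 : ZMod 2) := by
  classical
  intro δ hδ N
  -- labels
  have hr : ∀ y, ∃ c, dist y v = 1 → c ∈ T y ∧ c ∉ S ∧
      ((∃ i j, i ≠ j ∧ i ∉ S ∧ j ∉ S ∧ i ∈ T y ∧ j ∈ T y ∧ y ∈ Ex i j) →
        ∀ᶠ y' in 𝓝 y, dist y' v = 1 → y' ≠ y → ∀ m ∈ T y', m ∈ S ∨ m = c) := by
    intro y
    by_cases hy : dist y v = 1
    · by_cases hb : ∃ i j, i ≠ j ∧ i ∉ S ∧ j ∉ S ∧ i ∈ T y ∧ j ∈ T y ∧ y ∈ Ex i j
      · obtain ⟨i, j, hij, hi, hj, hiy, hjy, he⟩ := hb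
        obtain ⟨t, ht, htS, hev⟩ := R2 y hy i j hij hi hj hiy hjy he
        exact ⟨t, fun _ => ⟨ht, htS, fun _ => hev⟩⟩
      · obtain ⟨c, hc, hcS⟩ := Set.not_subset.1 (hv.2.2 y hy)
        exact ⟨c, fun _ => ⟨hc, hcS, fun h => absurd h hb⟩⟩
    · exact ⟨0, fun h => absurd h hy⟩
  choose rl hrl using hr
  -- radii
  have hrad : ∀ y : sphere v 1, ∃ r > 0, r ≤ δ ∧ ∀ P : ℂ, dist P (y : ℂ) < r → T P ⊆ T (y : ℂ) ∧
      ((∃ i j, i ≠ j ∧ i ∉ S ∧ j ∉ S ∧ i ∈ T (y : ℂ) ∧ j ∈ T (y : ℂ) ∧ (y : ℂ) ∈ Ex i j) →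
        dist P v = 1 → P ≠ y → ∀ m ∈ T P, m ∈ S ∨ m = rl y) := by
    rintro ⟨y, hy⟩
    have h1 := (hrl y hy).2.2
    by_cases hb : ∃ i j, i ≠ j ∧ i ∉ S ∧ j ∉ S ∧ i ∈ T y ∧ j ∈ T y ∧ y ∈ Ex i j
    · obtain ⟨r, hr, h3⟩ := Metric.eventually_nhds_iff.1 ((usc y).and (h1 hb))
      exact ⟨min r δ, lt_min hr hδ, min_le_right _ _, fun P hP =>
        ⟨(h3 (hP.trans_le (min_le_left _ _))).1, fun _ => (h3 (hP.trans_le (min_le_left _ _))).2⟩⟩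
    · obtain ⟨r, hr, h3⟩ := Metric.eventually_nhds_iff.1 (usc y)
      exact ⟨min r δ, lt_min hr hδ, min_le_right _ _, fun P hP =>
        ⟨h3 (hP.trans_le (min_le_left _ _)), fun h => absurd h hb⟩⟩
  choose r hr hrδ hloc using hrad
  obtain ⟨η, hη, hB⟩ := lebesgue_number_lemma_of_metric (isCompact_sphere v 1)
    (c := fun x : sphere v 1 => ball (x : ℂ) (r x)) (fun x => isOpen_ball)
    (fun x hx => mem_iUnion.2 ⟨⟨x, hx⟩, mem_ball_self (hr _)⟩)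
  obtain ⟨M, hM⟩ := exists_nat_gt (2 * Real.pi / η)
  obtain ⟨n, hn, hodd⟩ := R1 (max N (max M 1))
  have hn0 : 0 < n := lt_of_lt_of_le Nat.one_pos
    ((le_max_right M 1).trans ((le_max_right N _).trans hn))
  have hn0' : (0 : ℝ) < n := by exact_mod_cast hn0
  have hMn : (M : ℝ) ≤ n := by
    exact_mod_cast (le_max_left M 1).trans ((le_max_right N _).trans hn)
  have hstep : 2 * Real.pi / n < η := by
    rw [div_lt_iff₀ hη] at hM
    rw [div_lt_iff₀ hn0']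
    nlinarith
  let P : ℕ → ℂ := fun k => v + cis (2 * Real.pi * k / n)
  have hP1 : ∀ k, dist (P k) v = 1 := by
    intro k
    simp only [P]
    rw [dist_eq_norm, add_sub_cancel_left]
    exact End.norm_cis _
  have hPpt : ∀ k, P k = pt v 1 n 1 k := by
    intro k
    simp [P, pt]
  have hPP : ∀ k, dist (P (k + 1)) (P k) < η := by
    intro k
    rw [hPpt, hPpt, dist_comm]
    exact (dist_pt_angular v Nat.one_pos hn0 le_rfl k).trans_lt hstep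
  let l : ℕ → Fin 6 := fun k => rl (P k)
  have hlT : ∀ k, l k ∈ T (P k) := fun k => (hrl (P k) (hP1 k)).1
  have hlS : ∀ k, l k ∉ S := fun k => (hrl (P k) (hP1 k)).2.1
  have hper : ∀ k, l (k + n) = l k := by
    intro k
    simp only [l]
    rw [hPpt, hPpt, pt_period v hn0]
  refine ⟨n, (le_max_left _ _).trans hn, l, hper, hlT, hlS, fun k hk => ?_,
    hodd l hper hlT hlS⟩
  obtain ⟨y, hy⟩ := hB (P k) (mem_sphere.2 (hP1 k))
  have h1 : dist (P k) (y : ℂ) < r y := hy (mem_ball_self hη)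
  have h2 : dist (P (k + 1)) (y : ℂ) < r y := hy (mem_ball.2 (hPP k))
  have hy1 : dist (y : ℂ) v = 1 := y.2
  obtain ⟨a1, a2⟩ := hloc y (P k) h1
  obtain ⟨b1, b2⟩ := hloc y (P (k + 1)) h2
  refine ⟨y, mem_closedBall.2 hy1.le, ?_, a1 (hlT k), b1 (hlT (k + 1)), fun he => ?_⟩
  · rw [dist_comm]
    exact h1.trans_le (hrδ y)
  · have hb : ∃ i j, i ≠ j ∧ i ∉ S ∧ j ∉ S ∧ i ∈ T (y : ℂ) ∧ j ∈ T (y : ℂ) ∧ (y : ℂ) ∈ Ex i j :=
      ⟨l k, l (k + 1), hk, hlS k, hlS (k + 1), a1 (hlT k), b1 (hlT (k + 1)), he⟩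
    have hA : l k = rl y := by
      by_cases hc : P k = y
      · simp only [l, hc]
      · exact (a2 hb (hP1 k) hc (l k) (hlT k)).resolve_left (hlS k)
    have hBb : l (k + 1) = rl y := by
      by_cases hc : P (k + 1) = y
      · simp only [l, hc]
      · exact (b2 hb (hP1 (k + 1)) hc (l (k + 1)) (hlT (k + 1))).resolve_left (hlS (k + 1))
    exact hk (hA.trans hBb.symm)

end Vale.Agent.P032.S5.EndX
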