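import Vale.Agent.P032.S5.H830.EndX

/-!
# P032, carriers: final assembly on the original cover

`cech_endX`: no states with a face `{3,4,5}` at `v` and an odd ring about `v`.
`ring_of`: the ring hypothesis from odd rings and the local form at pinched points.
-/

open Set Filter Topology Metric

noncomputable section

namespace Vale.Agent.P032.S5.EndX

open Vale.Agent.P032.Six Vale.Agent.P032.S5.Tab Vale.Agent.P032.S5.End

variable {T : ℂ → Set (Fin 6)} {Ex : Fin 6 → Fin 6 → Set ℂ} {B D : Set ℂ}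
  {lam : Fin 6 → ℂ → Fin 6 → Fin 6 → ZMod 2} {v : ℂ}

/-- the exceptional pair at a point is unique -/
lemma exu (g : GeoX T Ex B D) {x : ℂ} (hx : x ∈ B) {i j i' j' : Fin 6} (hij : i ≠ j)
    (hi : i ∈ T x) (hj : j ∈ T x) (he : x ∈ Ex i j) (hij' : i' ≠ j') (hi' : i' ∈ T x)
    (hj' : j' ∈ T x) (he' : x ∈ Ex i' j') : (i' = i ∧ j' = j) ∨ (i' = j ∧ j' = i) := by
  rcases g.pal x hx with h | h | ⟨a, b, c, hab, hac, hbc, hT, -, h2, h3⟩ |
    ⟨a, b, c, d, hnd, hT, -, h2, h3⟩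
  · exact absurd he (h.2 i hi j hj hij)
  · exact absurd he (h.2 i hi j hj hij)
  · have key : ∀ p ∈ T x, ∀ q ∈ T x, p ≠ q → x ∈ Ex p q → (p = a ∧ q = b) ∨ (p = b ∧ q = a) := by
      intro p hp q hq hpq hex
      rw [hT] at hp hq
      simp only [Set.mem_insert_iff, Set.mem_singleton_iff] at hp hq
      have hex' := hex
      rw [g.exs] at hex'
      rcases hp with rfl | rfl | rfl <;> rcases hq with rfl | rfl | rfl
      · exact absurd rfl hpq
      · exact Or.inl ⟨rfl, rfl⟩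
      · exact absurd hex h2
      · exact Or.inr ⟨rfl, rfl⟩
      · exact absurd rfl hpq
      · exact absurd hex h3
      · exact absurd hex' h2
      · exact absurd hex' h3
      · exact absurd rfl hpq
    rcases key i hi j hj hij he with ⟨rfl, rfl⟩ | ⟨rfl, rfl⟩
    · exact key i' hi' j' hj' hij' he'
    · rcases key i' hi' j' hj' hij' he' with ⟨rfl, rfl⟩ | ⟨rfl, rfl⟩
      · exact Or.inr ⟨rfl, rfl⟩
      · exact Or.inl ⟨rfl, rfl⟩
  · have key : ∀ p ∈ T x, ∀ q ∈ T x, p ≠ q → x ∈ Ex p q → (p = a ∧ q = b) ∨ (p = b ∧ q = a) := by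
      intro p hp q hq hpq hex
      rw [hT] at hp hq
      simp only [Set.mem_insert_iff, Set.mem_singleton_iff] at hp hq
      have h2' : ∀ p ∈ ({a, c, d} : Set (Fin 6)), ∀ q ∈ ({a, c, d} : Set (Fin 6)), p ≠ q →
          x ∉ Ex p q := h2.2
      have h3' : ∀ p ∈ ({b, c, d} : Set (Fin 6)), ∀ q ∈ ({b, c, d} : Set (Fin 6)), p ≠ q →
          x ∉ Ex p q := h3.2
      rcases hp with rfl | rfl | rfl | rfl <;> rcases hq with rfl | rfl | rfl | rfl
      · exact absurd rfl hpq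
      · exact Or.inl ⟨rfl, rfl⟩
      · exact absurd hex (h2' _ (by simp) _ (by simp) hpq)
      · exact absurd hex (h2' _ (by simp) _ (by simp) hpq)
      · exact Or.inr ⟨rfl, rfl⟩
      · exact absurd rfl hpq
      · exact absurd hex (h3' _ (by simp) _ (by simp) hpq)
      · exact absurd hex (h3' _ (by simp) _ (by simp) hpq)
      · exact absurd hex (h2' _ (by simp) _ (by simp) hpq)
      · exact absurd hex (h3' _ (by simp) _ (by simp) hpq)
      · exact absurd rfl hpq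
      · exact absurd hex (h2' _ (by simp) _ (by simp) hpq)
      · exact absurd hex (h2' _ (by simp) _ (by simp) hpq)
      · exact absurd hex (h3' _ (by simp) _ (by simp) hpq)
      · exact absurd hex (h2' _ (by simp) _ (by simp) hpq)
      · exact absurd rfl hpq
    rcases key i hi j hj hij he with ⟨rfl, rfl⟩ | ⟨rfl, rfl⟩
    · exact key i' hi' j' hj' hij' he'
    · rcases key i' hi' j' hj' hij' he' with ⟨rfl, rfl⟩ | ⟨rfl, rfl⟩
      · exact Or.inr ⟨rfl, rfl⟩
      · exact Or.inl ⟨rfl, rfl⟩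

/-- an exceptional pair is not the whole palette -/
lemma ex_third (g : GeoX T Ex B D) {x : ℂ} (hx : x ∈ B) {i j : Fin 6} (hij : i ≠ j)
    (hi : i ∈ T x) (hj : j ∈ T x) (he : x ∈ Ex i j) : ∃ k ∈ T x, k ≠ i ∧ k ≠ j := by
  by_contra hcon
  push Not at hcon
  have h2 : (T x).ncard ≤ 2 := by
    have h1 : T x ⊆ {i, j} := by
      intro k hk
      by_cases hki : k = i
      · simp [hki]
      · simp [hcon k hk hki]
    exact (Set.ncard_le_ncard h1 (Set.toFinite _)).trans (Set.ncard_pair hij).le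
  rcases g.pal x hx with h | h | ⟨a, b, c, hab, hac, hbc, hT, -⟩ |
    ⟨a, b, c, d, hnd, hT, -⟩
  · exact h.2 i hi j hj hij he
  · exact h.2 i hi j hj hij he
  · rw [hT, ncard_triple hab hac hbc] at h2
    omega
  · have hac : a ≠ c ∧ a ≠ d ∧ c ≠ d := by
      simp only [List.nodup_cons, List.mem_cons, List.not_mem_nil, or_false, not_or,
        List.nodup_nil, and_true] at hnd
      tauto
    have h3 : ({a, c, d} : Set (Fin 6)) ⊆ T x := by
      rw [hT]
      intro y hy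
      simp only [Set.mem_insert_iff, Set.mem_singleton_iff] at hy ⊢
      tauto
    have h4 := Set.ncard_le_ncard h3 (Set.toFinite _)
    rw [ncard_triple hac.1 hac.2.1 hac.2.2] at h4
    omega

/-- three colours without exceptional pair form a base -/
lemma base_of (g : GeoX T Ex B D) {x : ℂ} (hx : x ∈ B) {i j k : Fin 6} (hij : i ≠ j)
    (hik : i ≠ k) (hjk : j ≠ k) (hi : i ∈ T x) (hj : j ∈ T x) (hk : k ∈ T x) (h1 : x ∉ Ex i j)
    (h2 : x ∉ Ex i k) (h3 : x ∉ Ex j k) : Base T Ex x {i, j, k} := by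
  have hsub : ({i, j, k} : Set (Fin 6)) ⊆ T x := by
    intro y hy
    simp only [Set.mem_insert_iff, Set.mem_singleton_iff] at hy
    rcases hy with rfl | rfl | rfl
    · exact hi
    · exact hj
    · exact hk
  have hc : ({i, j, k} : Set (Fin 6)).ncard = 3 := ncard_triple hij hik hjk
  have hno : ∀ p ∈ ({i, j, k} : Set (Fin 6)), ∀ q ∈ ({i, j, k} : Set (Fin 6)), p ≠ q →
      x ∉ Ex p q := by
    intro p hp q hq hpq
    simp only [Set.mem_insert_iff, Set.mem_singleton_iff] at hp hq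
    rcases hp with rfl | rfl | rfl <;> rcases hq with rfl | rfl | rfl
    · exact absurd rfl hpq
    · exact h1
    · exact h2
    · rw [g.exs]; exact h1
    · exact absurd rfl hpq
    · exact h3
    · rw [g.exs]; exact h2
    · rw [g.exs]; exact h3
    · exact absurd rfl hpq
  rcases g.pal x hx with h | h | ⟨a, b, c, hab, hac, hbc, hT, he, -⟩ |
    ⟨a, b, c, d, hnd, hT, he, hb1, hb2⟩
  · have h4 := Set.ncard_le_ncard hsub (Set.toFinite _)
    rw [hc] at h4
    omega
  · have h4 : ({i, j, k} : Set (Fin 6)) = T x :=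
      Set.eq_of_subset_of_ncard_le hsub (by rw [hc, h.1.1]) (Set.toFinite _)
    rw [h4]
    exact h
  · have h4 : ({i, j, k} : Set (Fin 6)) = T x :=
      Set.eq_of_subset_of_ncard_le hsub (by rw [hc, hT, ncard_triple hab hac hbc])
        (Set.toFinite _)
    exact absurd he (hno a (by rw [h4, hT]; simp) b (by rw [h4, hT]; simp) hab)
  · have hab : a ≠ b := by
      simp only [List.nodup_cons, List.mem_cons, List.not_mem_nil, or_false, not_or,
        List.nodup_nil, and_true] at hnd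
      tauto
    by_cases ha : a ∈ ({i, j, k} : Set (Fin 6))
    · by_cases hb : b ∈ ({i, j, k} : Set (Fin 6))
      · exact absurd he (hno a ha b hb hab)
      · have h5 : ({i, j, k} : Set (Fin 6)) ⊆ {a, c, d} := by
          intro y hy
          have h6 := hsub hy
          rw [hT] at h6
          simp only [Set.mem_insert_iff, Set.mem_singleton_iff] at h6
          rcases h6 with rfl | rfl | rfl | rfl
          · simp
          · exact absurd hy hb
          · simp
          · simp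
        have h7 : ({i, j, k} : Set (Fin 6)) = {a, c, d} :=
          Set.eq_of_subset_of_ncard_le h5 (by rw [hc, hb1.1.1]) (Set.toFinite _)
        rw [h7]
        exact hb1
    · have h5 : ({i, j, k} : Set (Fin 6)) ⊆ {b, c, d} := by
        intro y hy
        have h6 := hsub hy
        rw [hT] at h6
        simp only [Set.mem_insert_iff, Set.mem_singleton_iff] at h6
        rcases h6 with rfl | rfl | rfl | rfl
        · exact absurd hy ha
        · simp
        · simp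
        · simp
      have h7 : ({i, j, k} : Set (Fin 6)) = {b, c, d} :=
        Set.eq_of_subset_of_ncard_le h5 (by rw [hc, hb2.1.1]) (Set.toFinite _)
      rw [h7]
      exact hb2

/-- an exceptional pair and two other colours -/
lemma base_of_ex (g : GeoX T Ex B D) {x : ℂ} (hx : x ∈ B) {i j k l : Fin 6} (hij : i ≠ j)
    (hi : i ∈ T x) (hj : j ∈ T x) (he : x ∈ Ex i j) (hk : k ∈ T x) (hl : l ∈ T x) (hki : k ≠ i)
    (hkj : k ≠ j) (hli : l ≠ i) (hlj : l ≠ j) (hkl : k ≠ l) :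
    Base T Ex x {i, k, l} ∧ Base T Ex x {j, k, l} := by
  have hu := fun p q hpq hp hq he' => exu g hx (i' := p) (j' := q) hij hi hj he hpq hp hq he'
  refine ⟨base_of g hx hki.symm hli.symm hkl hi hk hl (fun h => ?_) (fun h => ?_) (fun h => ?_),
    base_of g hx hkj.symm hlj.symm hkl hj hk hl (fun h => ?_) (fun h => ?_) (fun h => ?_)⟩
  · rcases hu i k hki.symm hi hk h with ⟨h1, h2⟩ | ⟨h1, h2⟩
    · exact hkj h2
    · exact hki h2
  · rcases hu i l hli.symm hi hl h with ⟨h1, h2⟩ | ⟨h1, h2⟩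
    · exact hlj h2
    · exact hli h2
  · rcases hu k l hkl hk hl h with ⟨h1, h2⟩ | ⟨h1, h2⟩
    · exact hki h1
    · exact hkj h1
  · rcases hu j k hkj.symm hj hk h with ⟨h1, h2⟩ | ⟨h1, h2⟩
    · exact hkj h2
    · exact hki h2
  · rcases hu j l hlj.symm hj hl h with ⟨h1, h2⟩ | ⟨h1, h2⟩
    · exact hlj h2
    · exact hli h2
  · rcases hu k l hkl hk hl h with ⟨h1, h2⟩ | ⟨h1, h2⟩
    · exact hki h1
    · exact hkj h1

/-- the pair `i k` with `k` outside the exceptional pair `i j` is ordinary -/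
lemma exk (g : GeoX T Ex B D) {x : ℂ} (hx : x ∈ B) {i j k : Fin 6} (hij : i ≠ j)
    (hi : i ∈ T x) (hj : j ∈ T x) (he : x ∈ Ex i j) (hk : k ∈ T x) (hki : k ≠ i)
    (hkj : k ≠ j) : x ∉ Ex i k ∧ x ∉ Ex j k := by
  have hu := fun p q hpq hp hq he' => exu g hx (i' := p) (j' := q) hij hi hj he hpq hp hq he'
  refine ⟨fun h => ?_, fun h => ?_⟩
  · rcases hu i k hki.symm hi hk h with ⟨h1, h2⟩ | ⟨h1, h2⟩
    · exact hkj h2
    · exact hki h2
  · rcases hu j k hkj.symm hj hk h with ⟨h1, h2⟩ | ⟨h1, h2⟩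
    · exact hkj h2
    · exact hki h2

/-- **The cocycle.** -/
theorem exists_cocycle (h : LamX T Ex B lam) (g : GeoX T Ex B D) (hvB : closedBall v 1 ⊆ B)
    (usc : ∀ x, ∀ᶠ y in 𝓝 x, T y ⊆ T x)
    (hv : Face T v {3, 4, 5})
    (near : ∀ p : Finset (Fin 6), p.card = 2 → ∀ Q : Set ℂ, Q ⊆ closedBall v 1 →
      IsPreconnected Q → (∀ z ∈ Q, ∀ i ∈ p, i ∈ T z) →
      (∀ z ∈ Q, ∀ i ∈ p, ∀ j ∈ p, i ≠ j → z ∉ Ex i j) → ∀ x ∈ Q, ∀ y ∈ Q, ∀ S S' : Set (Fin 6),
      Base T Ex x S → Base T Ex y S' → (∀ i ∈ p, i ∈ S) → (∀ i ∈ p, i ∈ S') → S ≠ S' →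
      (∀ u, dist u x ≤ 1 → ¬ Face T u S'ᶜ) ∨ (∀ u, dist u y ≤ 1 → ¬ Face T u Sᶜ)) :
    ∃ φ : Fin 6 → Fin 6 → ℂ → ZMod 2, (∀ i j x, φ i j x = φ j i x) ∧
      (∀ i j, i ≠ j → ∀ x ∈ closedBall v 1, i ∈ T x → j ∈ T x →
        ∀ᶠ y in 𝓝 x, y ∈ closedBall v 1 → i ∈ T y → j ∈ T y → φ i j y = φ i j x) ∧
      (∀ x ∈ closedBall v 1, ∀ i j k, i ≠ j → j ≠ k → i ≠ k → i ∈ T x → j ∈ T x → k ∈ T x →
        φ i j x + φ j k x + φ i k x = 0) ∧
      ∀ i j w, i ≠ j → i ∉ ({3, 4, 5} : Set (Fin 6)) → j ∉ ({3, 4, 5} : Set (Fin 6)) →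
        w ∉ Ex i j → φ i j w = if ({i, j} : Finset (Fin 6)) = {0, 1} then 1 else 0 := by
  classical
  have hlab : ∀ p : Finset (Fin 6), ∃ Ψ : ℂ → ZMod 2, (p = {0, 1} → ∀ x, Ψ x = 1) ∧
      ((p = {0, 2} ∨ p = {1, 2}) → ∀ x, Ψ x = 0) ∧ (p.card = 2 →
      (∀ x ∈ closedBall v 1, (∀ i ∈ p, i ∈ T x) → NoEx Ex p x → ∀ᶠ y in 𝓝 x,
        y ∈ closedBall v 1 → (∀ i ∈ p, i ∈ T y) → Ψ y = Ψ x) ∧
      ∀ x ∈ closedBall v 1, ∀ S : Finset (Fin 6), p ⊆ S → Base T Ex x (S : Set (Fin 6)) →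
        Ψ x = Phi p S (zcb lam S x)) := by
    intro p
    by_cases h01 : p = {0, 1}
    · subst h01
      refine ⟨fun _ => 1, fun _ _ => rfl, fun hcon => ?_, fun _ => ⟨fun _ _ _ _ =>
        Eventually.of_forall fun _ _ _ => rfl, fun x _ _ _ _ => (Phi_01 _ _).symm⟩⟩
      exact absurd hcon (by decide)
    by_cases h02 : p = {0, 2}
    · subst h02
      exact ⟨fun _ => 0, fun hcon => absurd hcon h01, fun _ _ => rfl, fun _ => ⟨fun _ _ _ _ =>
        Eventually.of_forall fun _ _ _ => rfl, fun x _ _ _ _ => (Phi_02 _ _).symm⟩⟩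
    by_cases h12 : p = {1, 2}
    · subst h12
      exact ⟨fun _ => 0, fun hcon => absurd hcon h01, fun _ _ => rfl, fun _ => ⟨fun _ _ _ _ =>
        Eventually.of_forall fun _ _ _ => rfl, fun x _ _ _ _ => (Phi_12 _ _).symm⟩⟩
    by_cases hp : p.card = 2
    · obtain ⟨Ψ, hΨ⟩ := exists_label h g hvB usc hp (near p hp)
      exact ⟨Ψ, fun h => absurd h h01, fun h => absurd h (not_or.2 ⟨h02, h12⟩), fun _ => hΨ⟩
    · exact ⟨fun _ => 0, fun h => absurd h h01, fun _ _ => rfl, fun h => absurd h hp⟩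
  choose Ψ hΨ1 hΨ0 hΨ using hlab
  have hvv : v ∈ closedBall v 1 := mem_closedBall_self zero_le_one
  -- local constancy of the labels at ordinary points of `T_i ∩ T_j`
  have hΨl : ∀ x ∈ closedBall v 1, ∀ i j : Fin 6, i ≠ j → i ∈ T x → j ∈ T x → x ∉ Ex i j →
      ∀ᶠ y in 𝓝 x, y ∈ closedBall v 1 → i ∈ T y → j ∈ T y → Ψ {i, j} y = Ψ {i, j} x := by
    intro x hx i j hij hi hj he
    have h1 := (hΨ {i, j} (Finset.card_pair hij)).1 x hx (by
      intro a ha
      simp only [Finset.mem_insert, Finset.mem_singleton] at ha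
      rcases ha with rfl | rfl
      · exact hi
      · exact hj) (by
      intro a ha b hb hab
      simp only [Finset.mem_insert, Finset.mem_singleton] at ha hb
      rcases ha with rfl | rfl <;> rcases hb with rfl | rfl
      · exact absurd rfl hab
      · exact he
      · rw [g.exs]; exact he
      · exact absurd rfl hab)
    filter_upwards [h1] with y hy hyD hyi hyj
    refine hy hyD ?_
    intro a ha
    simp only [Finset.mem_insert, Finset.mem_singleton] at ha
    rcases ha with rfl | rfl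
    · exact hyi
    · exact hyj
  -- the cocycle identity at bases
  have hΨb : ∀ x ∈ closedBall v 1, ∀ i j k : Fin 6, i ≠ j → j ≠ k → i ≠ k →
      Base T Ex x {i, j, k} → Ψ {i, j} x + Ψ {j, k} x + Ψ {i, k} x = 0 := by
    intro x hx i j k hij hjk hik hS0
    have hS : Base T Ex x (({i, j, k} : Finset (Fin 6)) : Set (Fin 6)) := by simpa using hS0
    have hc : ({i, j, k} : Finset (Fin 6)).card = 3 :=
      Finset.card_eq_three.2 ⟨i, j, k, hij, hik, hjk, rfl⟩
    have hI : ({i, j, k} : Finset (Fin 6)) ≠ {0, 1, 2} := by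
      intro hcon
      have h4 : (({i, j, k} : Finset (Fin 6)) : Set (Fin 6)) = ({3, 4, 5} : Set (Fin 6))ᶜ := by
        rw [hcon]
        ext a
        simp only [Finset.coe_insert, Finset.coe_singleton, Set.mem_insert_iff,
          Set.mem_singleton_iff, Set.mem_compl_iff]
        revert a
        decide
      have h5 := g.comp v (g.sub v (hvB hvv) (mem_closedBall_self zero_le_one)) x
        (g.sub x (hvB hx) (mem_closedBall_self zero_le_one)) {3, 4, 5} hv
        (by rw [← h4]; exact hS.1)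
      have h6 : dist x v ≤ 1 := hx
      rw [dist_comm] at h6
      linarith
    have h7 := sum_Phi hc hI (zcb_adm h g (hvB hx) hS)
    have e1 := (hΨ {i, j} (Finset.card_pair hij)).2 x hx {i, j, k}
      (by intro a ha; simp only [Finset.mem_insert, Finset.mem_singleton] at ha ⊢; tauto) hS
    have e2 := (hΨ {j, k} (Finset.card_pair hjk)).2 x hx {i, j, k}
      (by intro a ha; simp only [Finset.mem_insert, Finset.mem_singleton] at ha ⊢; tauto) hS
    have e3 := (hΨ {i, k} (Finset.card_pair hik)).2 x hx {i, j, k}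
      (by intro a ha; simp only [Finset.mem_insert, Finset.mem_singleton] at ha ⊢; tauto) hS
    rw [e1, e2, e3]
    obtain ⟨q1, q2, q3⟩ := pairs_of i j k hij hjk hik
    rw [q1, Finset.sum_insert q2, Finset.sum_insert q3, Finset.sum_singleton] at h7
    rw [← h7, add_assoc]
  -- the third colour
  let kk : Set (Fin 6) → Finset (Fin 6) → Fin 6 := fun S p =>
    if hh : ∃ k, k ∈ S ∧ k ∉ p then hh.choose else 0
  have hkk : ∀ x ∈ closedBall v 1, ∀ i j : Fin 6, i ≠ j → i ∈ T x → j ∈ T x → x ∈ Ex i j →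
      kk (T x) {i, j} ∈ T x ∧ kk (T x) {i, j} ≠ i ∧ kk (T x) {i, j} ≠ j := by
    intro x hx i j hij hi hj he
    obtain ⟨k, hk, hki, hkj⟩ := ex_third g (hvB hx) hij hi hj he
    have hh : ∃ k, k ∈ T x ∧ k ∉ ({i, j} : Finset (Fin 6)) := ⟨k, hk, by simp [hki, hkj]⟩
    have h1 := hh.choose_spec
    simp only [kk, dif_pos hh]
    refine ⟨h1.1, fun h2 => h1.2 ?_, fun h2 => h1.2 ?_⟩
    · rw [h2]; simp
    · rw [h2]; simp
  let φ : Fin 6 → Fin 6 → ℂ → ZMod 2 := fun i j x =>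
    if x ∈ Ex i j then Ψ {i, kk (T x) {i, j}} x + Ψ {j, kk (T x) {i, j}} x else Ψ {i, j} x
  have φ1 : ∀ i j x, x ∈ Ex i j →
      φ i j x = Ψ {i, kk (T x) {i, j}} x + Ψ {j, kk (T x) {i, j}} x := by
    intro i j x hx
    simp only [φ, if_pos hx]
  have φ0 : ∀ i j x, x ∉ Ex i j → φ i j x = Ψ {i, j} x := by
    intro i j x hx
    simp only [φ, if_neg hx]
  have φs : ∀ i j x, φ i j x = φ j i x := by
    intro i j x
    by_cases hx : x ∈ Ex i j
    · rw [φ1 i j x hx, φ1 j i x (by rw [g.exs]; exact hx), Finset.pair_comm i j, add_comm]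
    · rw [φ0 i j x hx, φ0 j i x (by rw [g.exs]; exact hx), Finset.pair_comm i j]
  have hA : ∀ x ∈ closedBall v 1, ∀ i j k, i ≠ j → j ≠ k → i ≠ k → i ∈ T x → j ∈ T x →
      k ∈ T x → x ∈ Ex i j → φ i j x + φ j k x + φ i k x = 0 := by
    intro x hx i j k hij hjk hik hi hj hk he
    obtain ⟨hk', hki', hkj'⟩ := hkk x hx i j hij hi hj he
    obtain ⟨e1, e2⟩ := exk g (hvB hx) hij hi hj he hk hik.symm hjk.symm
    rw [φ1 i j x he, φ0 j k x e2, φ0 i k x e1]
    generalize kk (T x) {i, j} = k' at *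
    by_cases hkk' : k = k'
    · subst hkk'
      generalize Ψ {i, k} x = a
      generalize Ψ {j, k} x = b
      revert a b
      decide
    · obtain ⟨b1, b2⟩ := base_of_ex g (hvB hx) hij hi hj he hk hk' hik.symm hjk.symm hki' hkj'
        hkk'
      have c1 := hΨb x hx i k k' hik hkk' hki'.symm b1
      have c2 := hΨb x hx j k k' hjk hkk' hkj'.symm b2
      revert c1 c2
      generalize Ψ {i, k} x = a
      generalize Ψ {j, k} x = b
      generalize Ψ {i, k'} x = c
      generalize Ψ {j, k'} x = d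
      generalize Ψ {k, k'} x = e
      revert a b c d e
      decide
  refine ⟨φ, φs, fun i j hij x hx hi hj => ?_, fun x hx i j k hij hjk hik hi hj hk => ?_,
    fun i j w hij hi hj hwe => ?_⟩
  · by_cases he : x ∈ Ex i j
    · obtain ⟨hk', hki', hkj'⟩ := hkk x hx i j hij hi hj he
      obtain ⟨e1, e2⟩ := exk g (hvB hx) hij hi hj he hk' hki' hkj'
      filter_upwards [hΨl x hx i _ hki'.symm hi hk' e1, hΨl x hx j _ hkj'.symm hj hk' e2,
        g.exc x (hvB hx) i j hij hi hj he] with y h1 h2 h3 hyD hyi hyj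
      obtain ⟨h4, h5⟩ := h3 hyi hyj
      have hky : kk (T x) {i, j} ∈ T y := by rw [h4]; exact hk'
      rw [φ1 i j y h5, φ1 i j x he, h4, h1 hyD hyi hky, h2 hyD hyj hky]
    · filter_upwards [hΨl x hx i j hij hi hj he, g.exo x (hvB hx) i j hij hi hj he]
        with y h1 h2 hyD hyi hyj
      rw [φ0 i j y (h2 hyi hyj), φ0 i j x he, h1 hyD hyi hyj]
  · by_cases e1 : x ∈ Ex i j
    · exact hA x hx i j k hij hjk hik hi hj hk e1
    by_cases e2 : x ∈ Ex j k
    · have h1 := hA x hx j k i hjk hik.symm hij.symm hj hk hi e2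
      rw [φs k i, φs j i] at h1
      rw [← h1]
      ring
    by_cases e3 : x ∈ Ex i k
    · have h1 := hA x hx i k j hik hjk.symm hij hi hk hj e3
      rw [φs k j] at h1
      rw [← h1]
      ring
    rw [φ0 i j x e1, φ0 j k x e2, φ0 i k x e3]
    exact hΨb x hx i j k hij hjk hik
      (base_of g (hvB hx) hij hik hjk hi hj hk e1 e3 e2)
  · rw [φ0 _ _ _ hwe]
    by_cases h01 : ({i, j} : Finset (Fin 6)) = {0, 1}
    · rw [if_pos h01, hΨ1 _ h01]
    · rw [if_neg h01]
      refine hΨ0 _ ?_ w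
      clear * - hij h01 hi hj
      revert i j
      decide

/-- the ring sum ignores constant steps -/
lemma sum_eps_eq (n : ℕ) (l : ℕ → Fin 6) :
    ∑ k ∈ Finset.range n, (if ({l k, l (k + 1)} : Finset (Fin 6)) = {0, 1} then 1 else 0) =
      ∑ k ∈ Finset.range n, (if l k = l (k + 1) then 0 else
        (if ({l k, l (k + 1)} : Finset (Fin 6)) = {0, 1} then (1 : ZMod 2) else 0)) := by
  refine Finset.sum_congr rfl fun k _ => ?_
  by_cases hk : l k = l (k + 1)
  · rw [if_pos hk, if_neg]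
    rw [hk]
    generalize l (k + 1) = b
    revert b
    decide
  · rw [if_neg hk]

/-- **Final assembly.** No states with a face `{3,4,5}` at `v` and an odd ring about `v`. -/
theorem cech_endX (h : LamX T Ex B lam) (g : GeoX T Ex B D) (hvB : closedBall v 1 ⊆ B)
    (usc : ∀ x, ∀ᶠ y in 𝓝 x, T y ⊆ T x) (ne : ∀ x ∈ closedBall v 1, (T x).Nonempty)
    (hv : Face T v {3, 4, 5})
    (near : ∀ p : Finset (Fin 6), p.card = 2 → ∀ Q : Set ℂ, Q ⊆ closedBall v 1 →
      IsPreconnected Q → (∀ z ∈ Q, ∀ i ∈ p, i ∈ T z) →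
      (∀ z ∈ Q, ∀ i ∈ p, ∀ j ∈ p, i ≠ j → z ∉ Ex i j) → ∀ x ∈ Q, ∀ y ∈ Q, ∀ S S' : Set (Fin 6),
      Base T Ex x S → Base T Ex y S' → (∀ i ∈ p, i ∈ S) → (∀ i ∈ p, i ∈ S') → S ≠ S' →
      (∀ u, dist u x ≤ 1 → ¬ Face T u S'ᶜ) ∨ (∀ u, dist u y ≤ 1 → ¬ Face T u Sᶜ))
    (ring : ∀ δ > 0, ∀ N : ℕ, ∃ n ≥ N, ∃ l : ℕ → Fin 6, (∀ k, l (k + n) = l k) ∧
      (∀ k : ℕ, l k ∈ T (v + cis (2 * Real.pi * k / n))) ∧
      (∀ k, l k ∉ ({3, 4, 5} : Set (Fin 6))) ∧
      (∀ k, l k ≠ l (k + 1) → ∃ w ∈ closedBall v 1, dist w (v + cis (2 * Real.pi * k / n)) < δ ∧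
        l k ∈ T w ∧ l (k + 1) ∈ T w ∧ w ∉ Ex (l k) (l (k + 1))) ∧
      ∑ k ∈ Finset.range n, (if ({l k, l (k + 1)} : Finset (Fin 6)) = {0, 1} then 1 else 0) =
        (1 : ZMod 2)) : False := by
  obtain ⟨φ, φs, φl, φc, φv⟩ := exists_cocycle h g hvB usc hv near
  obtain ⟨δ, hδ, N, hN⟩ := mesh_even2 (K := T) (v := v) (φ := φ) usc ne φs φl φc
  obtain ⟨n, hn, l, hper, hmem, hoff, hst, hodd⟩ := ring δ hδ N
  have h2 := hN n hn l hper hmem
    (fun k => if ({l k, l (k + 1)} : Finset (Fin 6)) = {0, 1} then 1 else 0) (by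
    intro k hk
    obtain ⟨w, hw, hwd, hw1, hw2, hwe⟩ := hst k hk
    exact ⟨w, hw, hwd, hw1, hw2, φv _ _ _ hk (hoff k) (hoff (k + 1)) hwe⟩)
  rw [sum_eps_eq, h2] at hodd
  exact absurd hodd (by decide)

end Vale.Agent.P032.S5.EndX
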