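import Vale.Agent.P032.S5.H830.FinX

/-!
# P032, carriers: final assembly with ring labels taken at nearby points

(needed when the unit circle about the final vertex carries four-coloured points)
-/

open Set Filter Topology Metric

noncomputable section

namespace Vale.Agent.P032.S5.EndX

open Vale.Agent.P032.Six Vale.Agent.P032.S5.End

section mesh

variable {K : ℂ → Set (Fin 6)} {v : ℂ} {φ : Fin 6 → Fin 6 → ℂ → ZMod 2}

/-- **mesh sum**: a locally constant cocycle on the closed cover has even ring sum; the values are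
taken at points near the ring -/
theorem mesh_even3 (usc : ∀ x, ∀ᶠ y in 𝓝 x, K y ⊆ K x)
    (ne : ∀ x ∈ closedBall v 1, (K x).Nonempty)
    (sym : ∀ i j x, φ i j x = φ j i x)
    (loc : ∀ i j, i ≠ j → ∀ x ∈ closedBall v 1, i ∈ K x → j ∈ K x →
      ∀ᶠ y in 𝓝 x, y ∈ closedBall v 1 → i ∈ K y → j ∈ K y → φ i j y = φ i j x)
    (coc : ∀ x ∈ closedBall v 1, ∀ i j k, i ≠ j → j ≠ k → i ≠ k → i ∈ K x → j ∈ K x → k ∈ K x →
      φ i j x + φ j k x + φ i k x = 0) :
    ∃ δ > 0, ∃ N, ∀ n ≥ N, ∀ (h : ℕ → Fin 6) (W : ℕ → ℂ), (∀ k, h (k + n) = h k) →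
      (∀ k, W (k + n) = W k) →
      (∀ k : ℕ, W k ∈ closedBall v 1 ∧ dist (W k) (v + cis (2 * Real.pi * k / n)) < δ ∧
        h k ∈ K (W k)) → ∀ c : ℕ → ZMod 2,
      (∀ k, h k ≠ h (k + 1) → ∃ w ∈ closedBall v 1, dist w (W k) < δ ∧
        h k ∈ K w ∧ h (k + 1) ∈ K w ∧ φ (h k) (h (k + 1)) w = c k) →
      ∑ k ∈ Finset.range n, (if h k = h (k + 1) then 0 else c k) = 0 := by
  classical
  obtain ⟨δ, hδ, g, g0, g3, gφ⟩ := glob2 usc sym loc coc
  obtain ⟨N, hN⟩ := exists_nat_gt (max 1 (8 * (2 * Real.pi + 1) / δ))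
  refine ⟨δ / 8, by positivity, N, fun n hn h W hper hWper hmem c hc => ?_⟩
  have hN1 : (1 : ℝ) < N := (le_max_left _ _).trans_lt hN
  have hnN : (N : ℝ) ≤ n := by exact_mod_cast hn
  have hn0 : 0 < n := by
    have : (0 : ℝ) < n := by linarith
    exact_mod_cast this
  have hn0' : (0 : ℝ) < n := by exact_mod_cast hn0
  have hpi := Real.pi_pos
  have hsmall : (2 * Real.pi + 1) / n < δ / 8 := by
    have h1 : 8 * (2 * Real.pi + 1) / δ < n := ((le_max_right _ _).trans_lt hN).trans_le hnN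
    rw [div_lt_iff₀ hδ] at h1
    rw [div_lt_iff₀ hn0']
    linarith
  have hs3 : 1 / (n : ℝ) + 2 * Real.pi / n < δ / 8 := by
    rw [← add_div, add_comm 1]
    exact hsmall
  have hs1 : 0 < 1 / (n : ℝ) := by positivity
  have hs2 : 0 < 2 * Real.pi / (n : ℝ) := by positivity
  -- labels
  have hlab : ∀ P : ℂ, ∃ a, P ∈ closedBall v 1 → a ∈ K P := fun P => by
    by_cases hP : P ∈ closedBall v 1
    · obtain ⟨a, ha⟩ := ne P hP
      exact ⟨a, fun _ => ha⟩
    · exact ⟨0, fun h => absurd h hP⟩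
  choose lab hlab using hlab
  let P : ℕ → ℕ → ℂ := fun i k => if i = n then W k else End.pt v n n i k
  let l : ℕ → ℕ → Fin 6 := fun i k => if i = n then h k else lab (P i k)
  have hPn : ∀ k, P n k = W k := fun k => by simp [P]
  have hPi : ∀ i, i ≠ n → ∀ k, P i k = End.pt v n n i k := fun i hi k => by simp [P, hi]
  have hring : ∀ k : ℕ, End.pt v n n n k = v + cis (2 * Real.pi * k / n) := by
    intro k
    simp only [End.pt]
    rw [div_self hn0'.ne', Complex.ofReal_one, one_mul]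
  have hclose : ∀ i k, dist (P i k) (End.pt v n n i k) ≤ δ / 8 := by
    intro i k
    by_cases hin : i = n
    · subst hin
      rw [hPn, hring]
      exact (hmem k).2.1.le
    · rw [hPi i hin, dist_self]
      positivity
  have hPD : ∀ i ≤ n, ∀ k, P i k ∈ closedBall v 1 := by
    intro i hi k
    by_cases hin : i = n
    · subst hin
      rw [hPn]
      exact (hmem k).1
    · rw [hPi i hin]
      exact End.pt_mem v hn0 hi k
  have hlK : ∀ i ≤ n, ∀ k, l i k ∈ K (P i k) := by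
    intro i hi k
    simp only [l]
    by_cases hin : i = n
    · subst hin
      rw [if_pos rfl, hPn]
      exact (hmem k).2.2
    · rw [if_neg hin]
      exact hlab _ (hPD i hi k)
  have hPper : ∀ i k, P i (k + n) = P i k := by
    intro i k
    by_cases hin : i = n
    · subst hin
      rw [hPn, hPn, hWper]
    · rw [hPi i hin, hPi i hin]
      exact End.pt_period v hn0 i k
  have hlper : ∀ i k, l i (k + n) = l i k := by
    intro i k
    simp only [l]
    by_cases hin : i = n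
    · rw [if_pos hin, if_pos hin, hper]
    · rw [if_neg hin, if_neg hin, hPper]
  have hdr : ∀ i k, dist (P i k) (P (i + 1) k) ≤ 1 / n + δ / 4 := by
    intro i k
    have h1 := End.dist_pt_radial v hn0 (n := n) i k
    have h2 := hclose i k
    have h3 := hclose (i + 1) k
    have h4 := dist_triangle (P i k) (End.pt v n n i k) (P (i + 1) k)
    have h5 := dist_triangle (End.pt v n n i k) (End.pt v n n (i + 1) k) (P (i + 1) k)
    rw [dist_comm (End.pt v n n (i + 1) k)] at h5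
    linarith
  have hda : ∀ i ≤ n, ∀ k, dist (P i k) (P i (k + 1)) ≤ 2 * Real.pi / n + δ / 4 := by
    intro i hi k
    have h1 := End.dist_pt_angular v hn0 hn0 hi k
    have h2 := hclose i k
    have h3 := hclose i (k + 1)
    have h4 := dist_triangle (P i k) (End.pt v n n i k) (P i (k + 1))
    have h5 := dist_triangle (End.pt v n n i k) (End.pt v n n i (k + 1)) (P i (k + 1))
    rw [dist_comm (End.pt v n n i (k + 1))] at h5
    linarith
  -- one cell
  let e1 : ℕ → ℕ → ZMod 2 := fun i k => g (P i k) (l i k) (l (i + 1) k)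
  let e2 : ℕ → ℕ → ZMod 2 := fun i k => g (P i k) (l i k) (l i (k + 1))
  let e3 : ℕ → ℕ → ZMod 2 := fun i k => g (P i k) (l i k) (l (i + 1) (k + 1))
  have hcell : ∀ i < n, ∀ k, e2 (i + 1) k = e2 i k + e1 i k + e1 i (k + 1) := by
    intro i hi k
    have d1 := hdr i k
    have d2 := hdr i (k + 1)
    have d3 := hda i hi.le k
    have d4 := hda (i + 1) hi k
    have t1 := dist_triangle (P i k) (P (i + 1) k) (P (i + 1) (k + 1))
    have a1 := g3 (P i k) (hPD i hi.le k) (P (i + 1) k) (hPD _ hi k) (P (i + 1) (k + 1))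
      (hPD _ hi _) (by linarith) (by linarith) (by linarith) _ (hlK i hi.le k) _ (hlK _ hi k) _
      (hlK _ hi _)
    have a2 := g3 (P i k) (hPD i hi.le k) (P i (k + 1)) (hPD _ hi.le _) (P (i + 1) (k + 1))
      (hPD _ hi _) (by linarith) (by linarith) (by linarith) _ (hlK i hi.le k) _ (hlK _ hi.le _) _
      (hlK _ hi _)
    have b1 : e1 i k + e2 (i + 1) k + e3 i k = 0 := a1
    have b2 : e2 i k + e1 i (k + 1) + e3 i k = 0 := a2
    revert b1 b2
    generalize e1 i k = x1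
    generalize e2 (i + 1) k = x2
    generalize e3 i k = x3
    generalize e2 i k = x4
    generalize e1 i (k + 1) = x5
    revert x1 x2 x3 x4 x5
    decide
  have hsum : ∀ i ≤ n, ∑ k ∈ Finset.range n, e2 i k = 0 := by
    intro i
    induction i with
    | zero =>
      intro _
      refine Finset.sum_eq_zero fun k _ => ?_
      have hP0 : ∀ k, P 0 k = v := fun k => by
        rw [hPi 0 hn0.ne]
        simp [End.pt]
      have hl0 : ∀ k, l 0 k = l 0 0 := by
        intro k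
        simp only [l, if_neg hn0.ne, hP0]
      show g (P 0 k) (l 0 k) (l 0 (k + 1)) = 0
      rw [hl0 k, hl0 (k + 1), g0]
    | succ i ih =>
      intro hi
      have hi' : i < n := hi
      rw [Finset.sum_congr rfl fun k _ => hcell i hi' k, Finset.sum_add_distrib,
        Finset.sum_add_distrib, ih hi'.le, zero_add]
      have h5 : ∑ k ∈ Finset.range n, e1 i (k + 1) + e1 i 0 =
          ∑ k ∈ Finset.range n, e1 i k + e1 i n := by
        rw [← Finset.sum_range_succ', Finset.sum_range_succ]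
      have h6 : e1 i n = e1 i 0 := by
        have h7 := hPper i 0
        have h8 := hlper i 0
        have h9 := hlper (i + 1) 0
        rw [zero_add] at h7 h8 h9
        simp only [e1]
        rw [h7, h8, h9]
      rw [h6] at h5
      rw [add_right_cancel h5, CharTwo.add_self_eq_zero]
  refine Eq.trans (Finset.sum_congr rfl fun k _ => ?_) (hsum n le_rfl)
  have hln : ∀ k, l n k = h k := fun k => by simp [l]
  show _ = g (P n k) (l n k) (l n (k + 1))
  rw [hln, hln]
  by_cases hk : h k = h (k + 1)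
  · rw [if_pos hk, hk, g0]
  · rw [if_neg hk]
    obtain ⟨w, hwD, hwd, hw1, hw2, hw3⟩ := hc k hk
    rw [gφ (P n k) (hPD n le_rfl k) (h k) (h (k + 1)) hk w hwD (by rw [hPn]; linarith) hw1 hw2,
      hw3]

end mesh

open Vale.Agent.P032.S5.Tab

variable {T : ℂ → Set (Fin 6)} {Ex : Fin 6 → Fin 6 → Set ℂ} {B D : Set ℂ}
  {lam : Fin 6 → ℂ → Fin 6 → Fin 6 → ZMod 2} {v : ℂ}

/-- **Final assembly**, ring labels at nearby points. -/
theorem cech_endH (h : LamX T Ex B lam) (g : GeoX T Ex B D) (hvB : closedBall v 1 ⊆ B)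
    (usc : ∀ x, ∀ᶠ y in 𝓝 x, T y ⊆ T x) (ne : ∀ x ∈ closedBall v 1, (T x).Nonempty)
    (hv : Face T v {3, 4, 5})
    (near : ∀ p : Finset (Fin 6), p.card = 2 → ∀ Q : Set ℂ, Q ⊆ closedBall v 1 →
      IsPreconnected Q → (∀ z ∈ Q, ∀ i ∈ p, i ∈ T z) →
      (∀ z ∈ Q, ∀ i ∈ p, ∀ j ∈ p, i ≠ j → z ∉ Ex i j) → ∀ x ∈ Q, ∀ y ∈ Q, ∀ S S' : Set (Fin 6),
      Base T Ex x S → Base T Ex y S' → (∀ i ∈ p, i ∈ S) → (∀ i ∈ p, i ∈ S') → S ≠ S' →
      (∀ u, dist u x ≤ 1 → ¬ Face T u S'ᶜ) ∨ (∀ u, dist u y ≤ 1 → ¬ Face T u Sᶜ))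
    (ring : ∀ δ > 0, ∀ N : ℕ, ∃ n ≥ N, ∃ (l : ℕ → Fin 6) (P : ℕ → ℂ), (∀ k, l (k + n) = l k) ∧
      (∀ k, P (k + n) = P k) ∧
      (∀ k : ℕ, P k ∈ closedBall v 1 ∧ dist (P k) (v + cis (2 * Real.pi * k / n)) < δ ∧
        l k ∈ T (P k)) ∧
      (∀ k, l k ∉ ({3, 4, 5} : Set (Fin 6))) ∧
      (∀ k, l k ≠ l (k + 1) → ∃ w ∈ closedBall v 1, dist w (P k) < δ ∧
        l k ∈ T w ∧ l (k + 1) ∈ T w ∧ w ∉ Ex (l k) (l (k + 1))) ∧
      ∑ k ∈ Finset.range n, (if ({l k, l (k + 1)} : Finset (Fin 6)) = {0, 1} then 1 else 0) =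
        (1 : ZMod 2)) : False := by
  classical
  obtain ⟨φ, φs, φl, φc, φv⟩ := exists_cocycle h g hvB usc hv near
  obtain ⟨δ, hδ, N, hN⟩ := mesh_even3 (K := T) (v := v) (φ := φ) usc ne φs φl φc
  obtain ⟨n, hn, l, P, hper, hPper, hmem, hoff, hst, hodd⟩ := ring δ hδ N
  have h2 := hN n hn l P hper hPper hmem
    (fun k => if ({l k, l (k + 1)} : Finset (Fin 6)) = {0, 1} then 1 else 0) (by
    intro k hk
    obtain ⟨w, hw, hwd, hw1, hw2, hwe⟩ := hst k hk
    exact ⟨w, hw, hwd, hw1, hw2, φv _ _ _ hk (hoff k) (hoff (k + 1)) hwe⟩)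
  rw [sum_eps_eq, h2] at hodd
  exact absurd hodd (by decide)

end Vale.Agent.P032.S5.EndX
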