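import Vale.Agent.P032.S5.State

/-!
# P032, carriers: the state at a three-coloured point of an auxiliary cover

`V` : a closed cover with at most three colours at each point (real palettes outside small holes about
the harmless points, faces of the carriers on the boundaries of the holes), `rho` : the
representatives, `F u s` : the three-set `s` is a face at `u`.
-/

open Set Filter Topology Metric

noncomputable section

namespace Vale.Agent.P032.S5

/-- the properties of the functions `lam` which do not speak of the support -/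
structure LamB (V : ℂ → Set (Fin 6)) (B : Set ℂ)
    (lam : Fin 6 → ℂ → Fin 6 → Fin 6 → ZMod 2) : Prop where
  symm : ∀ a x b c, lam a x b c = lam a x c b
  diag : ∀ a x b, lam a x b b = 0
  self : ∀ a x b, lam a x a b = 0
  loc : ∀ a, ∀ x ∈ B, a ∈ V x → ∀ᶠ x' in 𝓝[{y | a ∈ V y}] x, lam a x' = lam a x
  euler : ∀ a, ∀ x ∈ B, a ∈ V x → ∀ b, b ≠ a → ∑ c, lam a x b c = 0
  agree : ∀ x ∈ B, ∀ a ∈ V x, ∀ b ∈ V x, ∀ c, lam a x b c = lam b x a c
  wind : ∀ x ∈ B, ∀ a b c, a ≠ b → a ≠ c → b ≠ c → V x = {a, b, c} → ∀ d e, d ≠ e →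
    d ∉ V x → e ∉ V x → lam a x d e + lam b x d e + lam c x d e = 1

/-- `LamB` and the support: a nonzero value at `{a, b, c}`, `a` a colour of `x`, comes from a face
`{a, b, c}` at a point `u` of the closed unit disc about `rho x`, and then `a` is a colour of points
of the disc arbitrarily near to `u`, different from `u` -/
structure LamF (V K : ℂ → Set (Fin 6)) (rho : ℂ → ℂ) (F : ℂ → Set (Fin 6) → Prop) (B : Set ℂ)
    (lam : Fin 6 → ℂ → Fin 6 → Fin 6 → ZMod 2) : Prop extends LamB V B lam where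
  supp : ∀ x ∈ B, ∀ a ∈ V x, ∀ b c, a ≠ b → a ≠ c → b ≠ c → lam a x b c ≠ 0 →
    ∃ u ∈ closedBall (rho x) 1, F u {a, b, c} ∧
      ¬ ∀ᶠ w in 𝓝[closedBall (rho x) 1 \ {u}] u, a ∉ K w

/-- the geometric inputs -/
structure GeoF (V K : ℂ → Set (Fin 6)) (rho : ℂ → ℂ) (F : ℂ → Set (Fin 6) → Prop)
    (B D : Set ℂ) : Prop where
  three : ∀ x ∈ B, (V x).ncard ≤ 3
  face : ∀ x ∈ B, (V x).ncard = 3 → F (rho x) (V x)
  sub : ∀ x ∈ B, closedBall (rho x) 1 ⊆ D
  comp : ∀ u ∈ D, ∀ u' ∈ D, ∀ s : Set (Fin 6), s.ncard = 3 → F u s → F u' sᶜ → 2 ≤ dist u u'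
  lens : ∀ x ∈ B, ∀ u u' : ℂ, ∀ s : Set (Fin 6), ∀ t, (V x).ncard = 3 → s.ncard = 3 → F u s →
    F u' sᶜ → s ≠ V x → sᶜ ≠ V x → dist u (rho x) = 1 → dist u' (rho x) = 1 → dist u u' = 2 →
    s ∩ V x = {t} → ∀ᶠ w in 𝓝[closedBall (rho x) 1 \ {u}] u, t ∉ K w

variable {V K : ℂ → Set (Fin 6)} {rho : ℂ → ℂ} {F : ℂ → Set (Fin 6) → Prop} {B D : Set ℂ}
  {lam : Fin 6 → ℂ → Fin 6 → Fin 6 → ZMod 2}

namespace LamB

theorem zz_swap12 (h : LamB V B lam) {x : ℂ} (hx : x ∈ B) (p q r : Fin 6) :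
    zz V lam x p q r = zz V lam x q p r := by
  unfold zz
  by_cases hp : p ∈ V x
  · by_cases hq : q ∈ V x
    · simp only [hp, hq, if_true]
      exact h.agree x hx p hp q hq r
    · simp [hp, hq]
  · by_cases hq : q ∈ V x
    · simp [hp, hq]
    · by_cases hr : r ∈ V x
      · simp only [hp, hq, hr, if_true, if_false]
        exact h.symm r x p q
      · simp only [hp, hq, hr, if_false]
        have : (p ≠ q ∧ p ≠ r ∧ q ≠ r) ↔ (q ≠ p ∧ q ≠ r ∧ p ≠ r) := by
          constructor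
          · rintro ⟨h1, h2, h3⟩; exact ⟨h1.symm, h3, h2⟩
          · rintro ⟨h1, h2, h3⟩; exact ⟨h1.symm, h3, h2⟩
        simp [this]

theorem zz_swap23 (h : LamB V B lam) {x : ℂ} (hx : x ∈ B) (p q r : Fin 6) :
    zz V lam x p q r = zz V lam x p r q := by
  unfold zz
  by_cases hp : p ∈ V x
  · simp only [hp, if_true]; exact h.symm p x q r
  · by_cases hq : q ∈ V x
    · by_cases hr : r ∈ V x
      · simp only [hp, hq, hr, if_true, if_false]
        rw [h.symm q x p r, h.symm r x p q]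
        exact h.agree x hx q hq r hr p
      · simp [hp, hq, hr]
    · by_cases hr : r ∈ V x
      · simp [hp, hq, hr]
      · simp only [hp, hq, hr, if_false]
        have : (p ≠ q ∧ p ≠ r ∧ q ≠ r) ↔ (p ≠ r ∧ p ≠ q ∧ r ≠ q) := by
          constructor
          · rintro ⟨h1, h2, h3⟩; exact ⟨h2, h1, h3.symm⟩
          · rintro ⟨h1, h2, h3⟩; exact ⟨h2, h1, h3.symm⟩
        simp [this]

theorem zz_diag (h : LamB V B lam) (x : ℂ) (p q : Fin 6) : zz V lam x p q q = 0 := by
  unfold zz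
  by_cases hp : p ∈ V x
  · simp [hp, h.diag]
  · by_cases hq : q ∈ V x
    · simp only [hp, hq, if_true, if_false]
      rw [h.symm, h.self]
    · simp [hp, hq]

theorem zz_self (h : LamB V B lam) {x : ℂ} (hx : x ∈ B) (p q : Fin 6) :
    zz V lam x p p q = 0 := by
  rw [zz_swap23 h hx, zz_swap12 h hx, zz_diag h]

/-- the state is a cycle -/
theorem zz_cycle (h : LamB V B lam) {x : ℂ} (hx : x ∈ B) (hT : (V x).ncard = 3) {b c : Fin 6}
    (hbc : b ≠ c) : ∑ a, zz V lam x a b c = 0 := by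
  by_cases hb : b ∈ V x
  · have : ∀ a, zz V lam x a b c = lam b x c a := by
      intro a
      rw [zz_swap12 h hx, zz_of_mem hb, h.symm]
    simp only [this]
    exact h.euler b x hx hb c hbc.symm
  · by_cases hc : c ∈ V x
    · have : ∀ a, zz V lam x a b c = lam c x b a := by
        intro a
        rw [zz_swap23 h hx, zz_swap12 h hx, zz_of_mem hc, h.symm]
      simp only [this]
      exact h.euler c x hx hc b hbc
    · obtain ⟨f, hf, hfb, hfc, hall⟩ := exists_third hT hb hc hbc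
      obtain ⟨p, q, r, hpq, hpr, hqr, hK⟩ := Set.ncard_eq_three.1 hT
      have hmem : ∀ m, m ∈ V x ↔ m = p ∨ m = q ∨ m = r := by
        intro m; rw [hK]; simp
      have hp : p ∈ V x := (hmem p).2 (Or.inl rfl)
      have hq : q ∈ V x := (hmem q).2 (Or.inr (Or.inl rfl))
      have hr : r ∈ V x := (hmem r).2 (Or.inr (Or.inr rfl))
      have huniv : (Finset.univ : Finset (Fin 6)) = {p, q, r, f, b, c} := by
        ext m
        simp only [Finset.mem_univ, Finset.mem_insert, Finset.mem_singleton, true_iff]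
        by_cases hm : m ∈ V x
        · rcases (hmem m).1 hm with h1 | h1 | h1
          · exact Or.inl h1
          · exact Or.inr (Or.inl h1)
          · exact Or.inr (Or.inr (Or.inl h1))
        · rcases hall m hm with h1 | h1 | h1
          · exact Or.inr (Or.inr (Or.inr (Or.inr (Or.inl h1))))
          · exact Or.inr (Or.inr (Or.inr (Or.inr (Or.inr h1))))
          · exact Or.inr (Or.inr (Or.inr (Or.inl h1)))
      have hne : ∀ {m n : Fin 6}, m ∈ V x → n ∉ V x → m ≠ n := by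
        intro m n hm hn hmn
        exact hn (hmn ▸ hm)
      rw [huniv, Finset.sum_insert, Finset.sum_insert, Finset.sum_insert, Finset.sum_insert,
        Finset.sum_insert, Finset.sum_singleton]
      · rw [zz_of_mem hp, zz_of_mem hq, zz_of_mem hr, zz_self h hx b c,
          zz_swap12 h hx c b c, zz_diag h x b c]
        have h1 : zz V lam x f b c = 1 := by
          unfold zz
          simp [hf, hb, hc, hfb, hfc, hbc]
        rw [h1]
        have h2 := h.wind x hx p q r hpq hpr hqr hK b c hbc hb hc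
        have h3 : lam p x b c + (lam q x b c + (lam r x b c + (1 + (0 + 0)))) =
            (lam p x b c + lam q x b c + lam r x b c) + 1 := by ring
        rw [h3, h2]
        decide
      · simpa using hbc
      · simp [hfb, hfc]
      · simp [hne hr hf, hne hr hb, hne hr hc]
      · simp [hqr, hne hq hf, hne hq hb, hne hq hc]
      · simp [hpq, hpr, hne hp hf, hne hp hb, hne hp hc]

/-! ## the rule along a component of `V_i ∩ V_j` -/

/-- `lam a` is constant on connected sets of points of colour `a` -/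
theorem lam_const (h : LamB V B lam) {a : Fin 6} {C : Set ℂ} (hC : IsPreconnected C)
    (hCB : C ⊆ B) (hCa : ∀ z ∈ C, a ∈ V z) {x y : ℂ} (hx : x ∈ C) (hy : y ∈ C) :
    lam a x = lam a y := by
  let _ : TopologicalSpace (Fin 6 → Fin 6 → ZMod 2) := ⊥
  have : DiscreteTopology (Fin 6 → Fin 6 → ZMod 2) := ⟨rfl⟩
  refine hC.constant (f := lam a) (fun z hz => ?_) hx hy
  refine tendsto_const_nhds.congr' ?_
  filter_upwards [(h.loc a z (hCB hz) (hCa z hz)).filter_mono (nhdsWithin_mono z hCa)] with w hw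
  exact hw.symm

theorem zz_eq_of_mem (h : LamB V B lam) {i : Fin 6} {C : Set ℂ} (hC : IsPreconnected C)
    (hCB : C ⊆ B) (hCi : ∀ z ∈ C, i ∈ V z) {x y : ℂ} (hx : x ∈ C) (hy : y ∈ C) (q r : Fin 6) :
    zz V lam x i q r = zz V lam y i q r := by
  rw [zz_of_mem (hCi x hx), zz_of_mem (hCi y hy), lam_const h hC hCB hCi hx hy]

/-- the difference of the states at two points of a connected subset of `V_i ∩ V_j` -/
theorem flat_zz (h : LamB V B lam) {i j k l m n : Fin 6} (hnd : [i, j, k, l, m, n].Nodup)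
    {C : Set ℂ} (hC : IsPreconnected C)
    (hCB : C ⊆ B) (hCi : ∀ z ∈ C, i ∈ V z) (hCj : ∀ z ∈ C, j ∈ V z) {x y : ℂ} (hx : x ∈ C)
    (hy : y ∈ C) (hTx : (V x).ncard = 3) (hTy : (V y).ncard = 3) :
    (zz V lam x k l m + zz V lam y k l m = zz V lam x l m n + zz V lam y l m n) ∧
    (zz V lam x k l n + zz V lam y k l n = zz V lam x l m n + zz V lam y l m n) ∧
    (zz V lam x k m n + zz V lam y k m n = zz V lam x l m n + zz V lam y l m n) := by
  have hxB := hCB hx
  have hyB := hCB hy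
  refine flat (D := fun p q r => zz V lam x p q r + zz V lam y p q r) hnd (fun p q r => ?_)
    (fun p q r => ?_) (fun p q => ?_) (fun b c hbc => ?_) (fun q r => ?_) (fun q r => ?_)
  · show _ + _ = _ + _
    rw [zz_swap12 h hxB, zz_swap12 h hyB]
  · show _ + _ = _ + _
    rw [zz_swap23 h hxB, zz_swap23 h hyB]
  · show _ + _ = _
    rw [zz_diag h, zz_diag h, add_zero]
  · rw [Finset.sum_add_distrib, zz_cycle h hxB hTx hbc, zz_cycle h hyB hTy hbc, add_zero]
  · show _ + _ = _
    rw [zz_eq_of_mem h hC hCB hCi hx hy, CharTwo.add_self_eq_zero]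
  · show _ + _ = _
    rw [zz_eq_of_mem h hC hCB hCj hx hy, CharTwo.add_self_eq_zero]

/-- **Rule, same palette**: the states agree -/
theorem rule_same (h : LamB V B lam) {i j k l m n : Fin 6} (hnd : [i, j, k, l, m, n].Nodup)
    {C : Set ℂ} (hC : IsPreconnected C)
    (hCB : C ⊆ B) (hCi : ∀ z ∈ C, i ∈ V z) (hCj : ∀ z ∈ C, j ∈ V z) {x y : ℂ} (hx : x ∈ C)
    (hy : y ∈ C) (hKx : V x = {i, j, k}) (hKy : V y = {i, j, k}) :
    zz V lam x l m n = zz V lam y l m n ∧ zz V lam x k l m = zz V lam y k l m ∧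
    zz V lam x k l n = zz V lam y k l n ∧ zz V lam x k m n = zz V lam y k m n := by
  obtain ⟨⟨hij, hik, hil, him, hin⟩, ⟨hjk, hjl, hjm, hjn⟩, ⟨hkl, hkm, hkn⟩, ⟨hlm, hln⟩, hmn⟩ :=
    nodup6 hnd
  have hTx : (V x).ncard = 3 := by rw [hKx]; exact ncard_triple hij hik hjk
  have hTy : (V y).ncard = 3 := by rw [hKy]; exact ncard_triple hij hik hjk
  have hl : l ∉ ({i, j, k} : Set (Fin 6)) := by simp [hil.symm, hjl.symm, hkl.symm]
  have hm : m ∉ ({i, j, k} : Set (Fin 6)) := by simp [him.symm, hjm.symm, hkm.symm]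
  have hn : n ∉ ({i, j, k} : Set (Fin 6)) := by simp [hin.symm, hjn.symm, hkn.symm]
  obtain ⟨e1, e2, e3⟩ := flat_zz h hnd hC hCB hCi hCj hx hy hTx hTy
  have hx1 : zz V lam x l m n = 1 :=
    zz_compl (by rw [hKx]; exact hl) (by rw [hKx]; exact hm) (by rw [hKx]; exact hn) hlm hln hmn
  have hy1 : zz V lam y l m n = 1 :=
    zz_compl (by rw [hKy]; exact hl) (by rw [hKy]; exact hm) (by rw [hKy]; exact hn) hlm hln hmn
  have h0 : zz V lam x l m n + zz V lam y l m n = 0 := by
    rw [hx1, hy1]; decide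
  rw [h0, CharTwo.add_eq_zero] at e1 e2 e3
  exact ⟨by rw [hx1, hy1], e1, e2, e3⟩

end LamB

/-- the support for `zz` -/
theorem LamF.zz_supp (h : LamF V K rho F B lam) {x : ℂ} (hx : x ∈ B) {p q r : Fin 6}
    (hpq : p ≠ q) (hpr : p ≠ r) (hqr : q ≠ r) (hp : p ∈ V x) (hz : zz V lam x p q r ≠ 0) :
    ∃ u ∈ closedBall (rho x) 1, F u {p, q, r} ∧
      ¬ ∀ᶠ w in 𝓝[closedBall (rho x) 1 \ {u}] u, p ∉ K w := by
  rw [zz_of_mem hp] at hz
  exact h.supp x hx p hp q r hpq hpr hqr hz

/-- a nonzero value of the state at a triple different from the complement of the palette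
excludes faces of the complementary type near -/
theorem LamF.zz_near (h : LamF V K rho F B lam) (g : GeoF V K rho F B D) {x y : ℂ} (hx : x ∈ B)
    (hy : y ∈ B) (hxy : dist (rho x) (rho y) < 1) {p q r : Fin 6} (hpq : p ≠ q) (hpr : p ≠ r)
    (hqr : q ≠ r) (hp : p ∈ V x) (hz : zz V lam x p q r ≠ 0) (hTy : (V y).ncard = 3) :
    V y ≠ ({p, q, r} : Set (Fin 6))ᶜ := by
  intro hK
  obtain ⟨u, hu, hKu, -⟩ := h.zz_supp hx hpq hpr hqr hp hz
  have hy1 : rho y ∈ D := g.sub y hy (mem_closedBall_self zero_le_one)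
  have hd := g.comp u (g.sub x hx hu) (rho y) hy1 {p, q, r} (ncard_triple hpq hpr hqr) hKu
    (by rw [← hK]; exact g.face y hy hTy)
  have hd1 : dist u (rho x) ≤ 1 := hu
  have hd3 := dist_triangle u (rho x) (rho y)
  linarith

/-- **Rule, different palettes**: the states differ exactly by the triples avoiding `i`, `j` -/
theorem LamF.rule_diff (h : LamF V K rho F B lam) (g : GeoF V K rho F B D)
    {i j k l m n : Fin 6}
    (hnd : [i, j, k, l, m, n].Nodup) {C : Set ℂ} (hC : IsPreconnected C)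
    (hCB : C ⊆ B) (hCi : ∀ z ∈ C, i ∈ V z) (hCj : ∀ z ∈ C, j ∈ V z) {x y : ℂ} (hx : x ∈ C)
    (hy : y ∈ C) (hxy : dist (rho x) (rho y) < 1) (hKx : V x = {i, j, k})
    (hKy : V y = {i, j, l}) :
    zz V lam x l m n = zz V lam y l m n + 1 ∧ zz V lam x k l m = zz V lam y k l m + 1 ∧
    zz V lam x k l n = zz V lam y k l n + 1 ∧ zz V lam x k m n = zz V lam y k m n + 1 := by
  obtain ⟨⟨hij, hik, hil, him, hin⟩, ⟨hjk, hjl, hjm, hjn⟩, ⟨hkl, hkm, hkn⟩, ⟨hlm, hln⟩, hmn⟩ :=
    nodup6 hnd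
  have hxB := hCB hx
  have hyB := hCB hy
  have hTx : (V x).ncard = 3 := by rw [hKx]; exact ncard_triple hij hik hjk
  have hTy : (V y).ncard = 3 := by rw [hKy]; exact ncard_triple hij hil hjl
  obtain ⟨e1, e2, e3⟩ := h.toLamB.flat_zz hnd hC hCB hCi hCj hx hy hTx hTy
  -- the complement of the palette of `y`
  have hy1 : zz V lam y k m n = 1 := by
    refine zz_compl ?_ ?_ ?_ hkm hkn hmn
    · rw [hKy]; simp [hik.symm, hjk.symm, hkl]
    · rw [hKy]; simp [him.symm, hjm.symm, hlm.symm]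
    · rw [hKy]; simp [hin.symm, hjn.symm, hln.symm]
  have hx0 : zz V lam x k m n = 0 := by
    by_contra hne
    refine h.zz_near g hxB hyB hxy hkm hkn hmn (by rw [hKx]; simp) hne hTy ?_
    rw [hKy]
    ext a
    have hall : a = i ∨ a = j ∨ a = k ∨ a = l ∨ a = m ∨ a = n := by
      have h1 : (Finset.univ : Finset (Fin 6)) = [i, j, k, l, m, n].toFinset :=
        (Finset.eq_univ_of_card _ (by rw [List.toFinset_card_of_nodup hnd]; rfl)).symm
      have h2 := Finset.mem_univ a
      rw [h1] at h2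
      simpa using h2
    simp only [Set.mem_insert_iff, Set.mem_singleton_iff, Set.mem_compl_iff, not_or]
    constructor
    · rintro (rfl | rfl | rfl)
      · exact ⟨hik, him, hin⟩
      · exact ⟨hjk, hjm, hjn⟩
      · exact ⟨hkl.symm, hlm, hln⟩
    · rintro ⟨h1, h2, h3⟩
      rcases hall with h4 | h4 | h4 | h4 | h4 | h4
      · exact Or.inl h4
      · exact Or.inr (Or.inl h4)
      · exact absurd h4 h1
      · exact Or.inr (Or.inr h4)
      · exact absurd h4 h2
      · exact absurd h4 h3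
  rw [hx0, hy1, zero_add] at e3
  rw [← e3] at e1 e2
  have key : ∀ a b : ZMod 2, a + b = 1 → a = b + 1 := by decide
  exact ⟨key _ _ e3.symm, key _ _ e1, key _ _ e2, by rw [hx0, hy1]; decide⟩

end Vale.Agent.P032.S5
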