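import Vale.Agent.P032.S5.H11.End
import Vale.Agent.P032.S5.H830.StateF

/-!
# P032, carriers: final assembly for an auxiliary cover with representatives and faces

The same argument as in `H11/End.lean`, with the support and the geometric inputs in the form of
`LamF` and `GeoF`.
-/

open Set Filter Topology Metric

noncomputable section

namespace Vale.Agent.P032.S5.EndF

open Vale.Agent.P032.Six Vale.Agent.P032.S5.Tab Vale.Agent.P032.S5.End

variable {V K : ℂ → Set (Fin 6)} {rho : ℂ → ℂ} {F : ℂ → Set (Fin 6) → Prop} {B D : Set ℂ}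
  {lam : Fin 6 → ℂ → Fin 6 → Fin 6 → ZMod 2} {v : ℂ}

lemma zc_eq (h : LamB V B lam) {x : ℂ} (hx : x ∈ B) {p q r : Fin 6} (hpq : p ≠ q) (hpr : p ≠ r)
    (hqr : q ≠ r) : zc V lam x {p, q, r} = zz V lam x p q r :=
  ofF_eq (h.zz_swap12 hx) (h.zz_swap23 hx) hpq hpr hqr

lemma zc_isCyc (h : LamB V B lam) {x : ℂ} (hx : x ∈ B) (hT : (Kf V x).card = 3) :
    IsCyc (zc V lam x) := by
  intro e he
  obtain ⟨b, c, hbc, rfl⟩ := Finset.card_eq_two.1 he
  have h1 := h.zz_cycle hx (by rw [ncard_Kf]; exact hT) hbc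
  rw [← Finset.sum_add_sum_compl ({b, c} : Finset (Fin 6))] at h1
  rw [Finset.sum_pair hbc, h.zz_self hx, h.zz_swap23 hx c b c, h.zz_self hx, add_zero,
    zero_add] at h1
  rw [← h1]
  refine Finset.sum_congr rfl fun l hl => ?_
  rw [Finset.mem_compl, Finset.mem_insert, Finset.mem_singleton, not_or] at hl
  exact zc_eq h hx hl.1 hl.2 hbc

lemma zc_compl (h : LamB V B lam) {x : ℂ} (hx : x ∈ B) (hT : (Kf V x).card = 3) :
    zc V lam x (Kf V x)ᶜ = 1 := by
  have hc : (Kf V x)ᶜ.card = 3 := by rw [Finset.card_compl, hT]; rfl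
  obtain ⟨d, e, f, hde, hdf, hef, hs⟩ := Finset.card_eq_three.1 hc
  have hn : ∀ a ∈ ({d, e, f} : Finset (Fin 6)), a ∉ V x := by
    intro a ha hK
    rw [← hs, Finset.mem_compl, mem_Kf] at ha
    exact ha hK
  rw [hs, zc_eq h hx hde hdf hef]
  exact zz_compl (hn d (by simp)) (hn e (by simp)) (hn f (by simp)) hde hdf hef

/-- the support, in chain form -/
lemma zc_supp (h : LamF V K rho F B lam) {x : ℂ} (hx : x ∈ B) {s : Finset (Fin 6)}
    (hs : s.card = 3) {t : Fin 6} (ht : t ∈ s) (htV : t ∈ V x) (hz : zc V lam x s ≠ 0) :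
    ∃ u ∈ closedBall (rho x) 1, F u (s : Set (Fin 6)) ∧
      ¬ ∀ᶠ w in 𝓝[closedBall (rho x) 1 \ {u}] u, t ∉ K w := by
  have hc : (s.erase t).card = 2 := by rw [Finset.card_erase_of_mem ht, hs]
  obtain ⟨q, r, hqr, he⟩ := Finset.card_eq_two.1 hc
  have hs2 : s = {t, q, r} := by rw [← he, Finset.insert_erase ht]
  have htq : t ≠ q := fun hh => by
    have : q ∈ s.erase t := by rw [he]; simp
    exact (Finset.mem_erase.1 this).1 hh.symm
  have htr : t ≠ r := fun hh => by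
    have : r ∈ s.erase t := by rw [he]; simp
    exact (Finset.mem_erase.1 this).1 hh.symm
  rw [hs2, zc_eq h.toLamB hx htq htr hqr] at hz
  have h1 := h.zz_supp hx htq htr hqr htV hz
  rw [hs2]
  simpa using h1

lemma inter_cases : ∀ s T : Finset (Fin 6), s.card = 3 → T.card = 3 → s ≠ T → s ≠ Tᶜ →
    (∃ t, s ∩ T = {t}) ∨ ∃ t, sᶜ ∩ T = {t} := by decide +kernel

lemma inter_nonempty : ∀ s T : Finset (Fin 6), s.card = 3 → T.card = 3 → s ≠ Tᶜ →
    (s ∩ T).Nonempty := by decide +kernel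

lemma zc_no_pair_aux (h : LamF V K rho F B lam) (g : GeoF V K rho F B D) {x : ℂ} (hx : x ∈ B)
    (hT : (Kf V x).card = 3) (s : Finset (Fin 6)) (hs : s.card = 3) (h1 : s ≠ Kf V x)
    (h2 : s ≠ (Kf V x)ᶜ) {t : Fin 6} (ht : s ∩ Kf V x = {t}) (hz1 : zc V lam x s ≠ 0)
    (hz2 : zc V lam x sᶜ ≠ 0) : False := by
  have hsc : sᶜ.card = 3 := by rw [Finset.card_compl, hs]; rfl
  have ht' : t ∈ s ∩ Kf V x := by rw [ht]; simp
  rw [Finset.mem_inter] at ht'
  have hne : sᶜ ≠ (Kf V x)ᶜ := fun hcon => h1 (compl_injective hcon)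
  obtain ⟨t', ht''⟩ := inter_nonempty sᶜ (Kf V x) hsc hT hne
  rw [Finset.mem_inter] at ht''
  obtain ⟨u, hu, hFu, hnu⟩ := zc_supp h hx hs ht'.1 (mem_Kf.1 ht'.2) hz1
  obtain ⟨u', hu', hFu', -⟩ := zc_supp h hx hsc ht''.1 (mem_Kf.1 ht''.2) hz2
  rw [Finset.coe_compl] at hFu'
  have hs3 : (s : Set (Fin 6)).ncard = 3 := by rw [Set.ncard_coe_finset, hs]
  have hd := g.comp u (g.sub x hx hu) u' (g.sub x hx hu') (s : Set (Fin 6)) hs3 hFu hFu'
  have hd1 : dist u (rho x) ≤ 1 := hu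
  have hd2 : dist u' (rho x) ≤ 1 := hu'
  have hd3 := dist_triangle_right u u' (rho x)
  refine hnu (g.lens x hx u u' (s : Set (Fin 6)) t (by rw [ncard_Kf]; exact hT) hs3 hFu hFu'
    (fun hcon => h1 ?_) (fun hcon => h2 ?_) (by linarith) (by linarith) (by linarith) ?_)
  · rw [← coe_Kf (K := V) x] at hcon
    exact Finset.coe_injective hcon
  · rw [← coe_Kf (K := V) x, ← Finset.coe_compl] at hcon
    rw [← compl_compl s, Finset.coe_injective hcon]
  · rw [← coe_Kf (K := V) x, ← Finset.coe_inter, ht, Finset.coe_singleton]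

lemma zc_no_pair (h : LamF V K rho F B lam) (g : GeoF V K rho F B D) {x : ℂ} (hx : x ∈ B)
    (hT : (Kf V x).card = 3) (s : Finset (Fin 6)) (hs : s.card = 3) (h1 : s ≠ Kf V x)
    (h2 : s ≠ (Kf V x)ᶜ) : zc V lam x s = 0 ∨ zc V lam x sᶜ = 0 := by
  by_contra hcon
  rw [not_or] at hcon
  have hsc : sᶜ.card = 3 := by rw [Finset.card_compl, hs]; rfl
  rcases inter_cases s (Kf V x) hs hT h1 h2 with ⟨t, ht⟩ | ⟨t, ht⟩
  · exact zc_no_pair_aux h g hx hT s hs h1 h2 ht hcon.1 hcon.2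
  · refine zc_no_pair_aux h g hx hT sᶜ hsc (fun h3 => h2 ?_) (fun h3 => h1 (compl_injective h3)) ht
      hcon.2 (by rw [compl_compl]; exact hcon.1)
    rw [← h3, compl_compl]

lemma zc_adm (h : LamF V K rho F B lam) (g : GeoF V K rho F B D) {x : ℂ} (hx : x ∈ B)
    (hT : (Kf V x).card = 3) : Adm (Kf V x) (zc V lam x) := by
  have h1 := zc_isCyc h.toLamB hx hT
  have h2 := zc_compl h.toLamB hx hT
  have h3 := zc_no_pair h g hx hT
  have h4 := parity' hT h1 h2 h3
  refine ⟨h1, h2, fun s hs => ?_⟩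
  by_cases hs1 : s = Kf V x
  · left; rw [hs1]; exact h4
  · by_cases hs2 : s = (Kf V x)ᶜ
    · right; rw [hs2, compl_compl]; exact h4
    · exact h3 s hs hs1 hs2

/-- the states at two points of a connected subset of `C_p` agree on the triples meeting `p` -/
lemma zc_eq_of_meet (h : LamB V B lam) {C : Set ℂ} (hC : IsPreconnected C) (hCB : C ⊆ B)
    {p : Finset (Fin 6)} (hCp : ∀ z ∈ C, ∀ i ∈ p, i ∈ V z) {x y : ℂ} (hx : x ∈ C) (hy : y ∈ C)
    {s : Finset (Fin 6)} (hs : s.card = 3) (hsp : ¬ Disjoint s p) :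
    zc V lam x s = zc V lam y s := by
  obtain ⟨i, his, hip⟩ := Finset.not_disjoint_iff.1 hsp
  have hc : (s.erase i).card = 2 := by rw [Finset.card_erase_of_mem his, hs]
  obtain ⟨q, r, hqr, he⟩ := Finset.card_eq_two.1 hc
  have hs2 : s = {i, q, r} := by rw [← he, Finset.insert_erase his]
  have hiq : i ≠ q := fun hh => by
    have : q ∈ s.erase i := by rw [he]; simp
    exact (Finset.mem_erase.1 this).1 hh.symm
  have hir : i ≠ r := fun hh => by
    have : r ∈ s.erase i := by rw [he]; simp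
    exact (Finset.mem_erase.1 this).1 hh.symm
  rw [hs2, zc_eq h (hCB hx) hiq hir hqr, zc_eq h (hCB hy) hiq hir hqr]
  exact h.zz_eq_of_mem hC hCB (fun z hz => hCp z hz i hip) hx hy q r

/-- local constancy on the triples meeting `p` -/
lemma zc_loc (h : LamB V B lam) {x : ℂ} (hx : x ∈ B) {p : Finset (Fin 6)}
    (hp : ∀ i ∈ p, i ∈ V x) : ∀ᶠ y in 𝓝 x, y ∈ B → (∀ i ∈ p, i ∈ V y) →
      ∀ s : Finset (Fin 6), s.card = 3 → ¬ Disjoint s p → zc V lam y s = zc V lam x s := by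
  have h1 : ∀ᶠ y in 𝓝 x, ∀ i : Fin 6, i ∈ p → i ∈ V y → lam i y = lam i x := by
    rw [eventually_all]
    intro i
    by_cases hi : i ∈ p
    · have h2 := h.loc i x hx (hp i hi)
      rw [eventually_nhdsWithin_iff] at h2
      filter_upwards [h2] with y hy _ hyi
      exact hy hyi
    · exact Eventually.of_forall fun y h => absurd h hi
  filter_upwards [h1] with y hy hyB hyp s hs hsp
  obtain ⟨i, his, hip⟩ := Finset.not_disjoint_iff.1 hsp
  have hc : (s.erase i).card = 2 := by rw [Finset.card_erase_of_mem his, hs]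
  obtain ⟨q, r, hqr, he⟩ := Finset.card_eq_two.1 hc
  have hs2 : s = {i, q, r} := by rw [← he, Finset.insert_erase his]
  have hiq : i ≠ q := fun hh => by
    have : q ∈ s.erase i := by rw [he]; simp
    exact (Finset.mem_erase.1 this).1 hh.symm
  have hir : i ≠ r := fun hh => by
    have : r ∈ s.erase i := by rw [he]; simp
    exact (Finset.mem_erase.1 this).1 hh.symm
  rw [hs2, zc_eq h hyB hiq hir hqr, zc_eq h hx hiq hir hqr, zz_of_mem (hyp i hip),
    zz_of_mem (hp i hip), hy i hip (hyp i hip)]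

/-- **Rule** in chain form -/
lemma zc_rule (h : LamF V K rho F B lam) (g : GeoF V K rho F B D) {C : Set ℂ}
    (hC : IsPreconnected C)
    (hCB : C ⊆ B) {p : Finset (Fin 6)} (hp : p.card = 2) (hCp : ∀ z ∈ C, ∀ i ∈ p, i ∈ V z)
    {x y : ℂ} (hx : x ∈ C) (hy : y ∈ C) (hxy : dist (rho x) (rho y) < 1)
    (hTx : (Kf V x).card = 3)
    (hTy : (Kf V y).card = 3) (s : Finset (Fin 6)) (hs : s.card = 3) :
    (Kf V y = Kf V x → zc V lam y s = zc V lam x s) ∧
      (Kf V y ≠ Kf V x → zc V lam y s = zc V lam x s + bd pᶜ s) := by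
  have hxB := hCB hx
  have hyB := hCB hy
  by_cases hd : Disjoint s p
  swap
  · have h1 := zc_eq_of_meet h.toLamB hC hCB hCp hx hy hs hd
    have h2 : bd pᶜ s = 0 := by
      have : ¬ s ⊆ pᶜ := fun h => hd (Finset.disjoint_left.2 fun a ha => Finset.mem_compl.1 (h ha))
      simp [bd, this]
    exact ⟨fun _ => h1.symm, fun _ => by rw [h1, h2, add_zero]⟩
  obtain ⟨i, j, hij, rfl⟩ := Finset.card_eq_two.1 hp
  have hCi : ∀ z ∈ C, i ∈ V z := fun z hz => hCp z hz i (by simp)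
  have hCj : ∀ z ∈ C, j ∈ V z := fun z hz => hCp z hz j (by simp)
  -- palettes
  have third : ∀ z ∈ C, (Kf V z).card = 3 → ∃ k, i ≠ k ∧ j ≠ k ∧ Kf V z = {i, j, k} := by
    intro z hz hT
    have hsub : ({i, j} : Finset (Fin 6)) ⊆ Kf V z := by
      intro a ha
      rw [mem_Kf]; exact hCp z hz a ha
    have h1 : (Kf V z \ {i, j}).card = 1 := by
      rw [Finset.card_sdiff_of_subset hsub, hT, Finset.card_pair hij]
    obtain ⟨k, hk⟩ := Finset.card_eq_one.1 h1
    have hk2 : k ∈ Kf V z \ {i, j} := by rw [hk]; simp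
    simp only [Finset.mem_sdiff, Finset.mem_insert, Finset.mem_singleton, not_or] at hk2
    refine ⟨k, fun h => hk2.2.1 h.symm, fun h => hk2.2.2 h.symm, ?_⟩
    rw [← Finset.sdiff_union_of_subset hsub, hk]
    ext a; simp; tauto
  obtain ⟨k, hik, hjk, hKx⟩ := third x hx hTx
  obtain ⟨l, hil, hjl, hKy⟩ := third y hy hTy
  have hbd : bd ({i, j} : Finset (Fin 6))ᶜ s = 1 := by
    have : s ⊆ ({i, j} : Finset (Fin 6))ᶜ := by
      intro a ha; rw [Finset.mem_compl]; exact Finset.disjoint_left.1 hd ha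
    unfold bd
    rw [if_pos this]
  have hsx : V x = {i, j, k} := by rw [← coe_Kf (K := V) x, hKx]; simp
  have hsy : V y = {i, j, l} := by rw [← coe_Kf (K := V) y, hKy]; simp
  by_cases hkl : k = l
  · subst hkl
    refine ⟨fun _ => ?_, fun hne => absurd (hKy.trans hKx.symm) hne⟩
    obtain ⟨l, m, n, hnd⟩ := six_of_pair i j k hij hik hjk
    obtain ⟨e1, e2, e3, e4⟩ := h.toLamB.rule_same hnd hC hCB hCi hCj hx hy hsx hsy
    obtain ⟨⟨-, -, hil, him, hin⟩, ⟨-, hjl, hjm, hjn⟩, ⟨hkl, hkm, hkn⟩, ⟨hlm, hln⟩, hmn⟩ :=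
      nodup6 hnd
    rcases four_cases hnd hs hd with rfl | rfl | rfl | rfl
    · rw [zc_eq h.toLamB hyB hlm hln hmn, zc_eq h.toLamB hxB hlm hln hmn, e1]
    · rw [zc_eq h.toLamB hyB hkl hkm hlm, zc_eq h.toLamB hxB hkl hkm hlm, e2]
    · rw [zc_eq h.toLamB hyB hkl hkn hln, zc_eq h.toLamB hxB hkl hkn hln, e3]
    · rw [zc_eq h.toLamB hyB hkm hkn hmn, zc_eq h.toLamB hxB hkm hkn hmn, e4]
  · have hnd4 : [i, j, k, l].Nodup := by
      simp [hij, hik, hil, hjk, hjl, hkl]
    obtain ⟨m, n, hnd⟩ := six_of_four i j k l hnd4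
    obtain ⟨e1, e2, e3, e4⟩ := h.rule_diff g hnd hC hCB hCi hCj hx hy hxy hsx hsy
    obtain ⟨⟨-, -, hil, him, hin⟩, ⟨-, hjl, hjm, hjn⟩, ⟨hkl, hkm, hkn⟩, ⟨hlm, hln⟩, hmn⟩ :=
      nodup6 hnd
    refine ⟨fun heq => ?_, fun _ => ?_⟩
    · exfalso
      rw [hKy, hKx] at heq
      have : l ∈ ({i, j, k} : Finset (Fin 6)) := by rw [← heq]; simp
      simp only [Finset.mem_insert, Finset.mem_singleton] at this
      rcases this with h | h | h
      · exact hil h.symm
      · exact hjl h.symm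
      · exact hkl h.symm
    · rw [hbd]
      have key : ∀ a b : ZMod 2, a = b + 1 → b = a + 1 := by decide
      rcases four_cases hnd hs hd with rfl | rfl | rfl | rfl
      · rw [zc_eq h.toLamB hyB hlm hln hmn, zc_eq h.toLamB hxB hlm hln hmn]; exact key _ _ e1
      · rw [zc_eq h.toLamB hyB hkl hkm hlm, zc_eq h.toLamB hxB hkl hkm hlm]; exact key _ _ e2
      · rw [zc_eq h.toLamB hyB hkl hkn hln, zc_eq h.toLamB hxB hkl hkn hln]; exact key _ _ e3
      · rw [zc_eq h.toLamB hyB hkm hkn hmn, zc_eq h.toLamB hxB hkm hkn hmn]; exact key _ _ e4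

/-- **the labels over the pair `p`** -/
theorem exists_label (h : LamF V K rho F B lam) (g : GeoF V K rho F B D)
    (hvB : closedBall v 1 ⊆ B)
    (usc : ∀ x, ∀ᶠ y in 𝓝 x, V y ⊆ V x) {p : Finset (Fin 6)} (hp : p.card = 2)
    (small : ∀ Q : Set ℂ, Q ⊆ closedBall v 1 → IsPreconnected Q → (∀ z ∈ Q, ∀ i ∈ p, i ∈ V z) →
      ∀ x ∈ Q, ∀ y ∈ Q, dist (rho x) (rho y) < 1) :
    ∃ Ψ : ℂ → ZMod 2, (∀ x ∈ closedBall v 1, (∀ i ∈ p, i ∈ V x) → ∀ᶠ y in 𝓝 x,
        y ∈ closedBall v 1 → (∀ i ∈ p, i ∈ V y) → Ψ y = Ψ x) ∧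
      ∀ x ∈ closedBall v 1, (∀ i ∈ p, i ∈ V x) → (Kf V x).card = 3 →
        Ψ x = Phi p (Kf V x) (zc V lam x) := by
  classical
  let E : Set ℂ := {x | x ∈ closedBall v 1 ∧ ∀ i ∈ p, i ∈ V x}
  have hEc : IsCompact E := (isCompact_closedBall v 1).inter_right (isClosed_pal usc p)
  have : CompactSpace E := isCompact_iff_compactSpace.1 hEc
  have hEB : E ⊆ B := fun x hx => hvB hx.1
  have hb := h.toLamB
  let X : Finset (Fin 6) × Ch → Set E := fun s =>
    {x | s.1.card = 3 ∧ Kf V (x : ℂ) = s.1 ∧ zc V lam (x : ℂ) = s.2}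
  -- local constancy of the state at three-coloured points
  have hloc3 : ∀ x ∈ E, (Kf V x).card = 3 → ∀ᶠ y in 𝓝 x, y ∈ E → Kf V y = Kf V x →
      zc V lam y = zc V lam x := by
    intro x hx hT
    have h1 := zc_loc hb (hEB hx) (p := Kf V x) (fun i hi => mem_Kf.1 hi)
    filter_upwards [h1] with y hy hyE hKy
    funext s
    by_cases hs : s.card = 3
    · by_cases hd : Disjoint s (Kf V x)
      · have hsc : s = (Kf V x)ᶜ := by
          refine Finset.eq_of_subset_of_card_le (fun a ha => Finset.mem_compl.2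
            (Finset.disjoint_left.1 hd ha)) ?_
          rw [Finset.card_compl, hT, hs]; rfl
        rw [hsc, zc_compl hb (hEB hx) hT, ← hKy, zc_compl hb (hEB hyE) (by rw [hKy]; exact hT)]
      · exact hy (hEB hyE) (fun i hi => mem_Kf.1 (by rw [hKy]; exact hi)) s hs hd
    · unfold zc; rw [ofF_ne hs, ofF_ne hs]
  have hXc : ∀ s, IsClosed (X s) := by
    rintro ⟨T, z⟩
    rw [← isOpen_compl_iff, isOpen_iff_mem_nhds]
    rintro ⟨y, hy⟩ hyX
    rw [mem_compl_iff] at hyX
    simp only [X, mem_ofPred_eq] at hyX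
    by_cases hT : T.card = 3
    swap
    · filter_upwards with x hx
      exact hT hx.1
    have h1 : ∀ᶠ x : E in 𝓝 ⟨y, hy⟩, V (x : ℂ) ⊆ V y :=
      Tendsto.eventually (p := fun z => V z ⊆ V y)
        (continuous_subtype_val.tendsto (⟨y, hy⟩ : E)) (usc y)
    by_cases hKy : Kf V y = T
    · have hzy : zc V lam y ≠ z := fun h => hyX ⟨hT, hKy, h⟩
      have h2 : ∀ᶠ x : E in 𝓝 ⟨y, hy⟩, (x : ℂ) ∈ E → Kf V (x : ℂ) = Kf V y →
          zc V lam (x : ℂ) = zc V lam y :=
        Tendsto.eventually (p := fun x => x ∈ E → Kf V x = Kf V y → zc V lam x = zc V lam y)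
          (continuous_subtype_val.tendsto (⟨y, hy⟩ : E)) (hloc3 y hy (by rw [hKy]; exact hT))
      filter_upwards [h2] with x hx2 hx
      exact hzy (by rw [← hx2 x.2 (by rw [hx.2.1, hKy]), hx.2.2])
    · filter_upwards [h1] with x hx1 hx
      apply hKy
      have hx2 : Kf V (x : ℂ) = T := hx.2.1
      have h3 : T ⊆ Kf V y := by
        intro a ha
        rw [← hx2, mem_Kf] at ha
        exact mem_Kf.2 (hx1 ha)
      have h4 := g.three y (hEB hy)
      rw [ncard_Kf] at h4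
      exact (Finset.eq_of_subset_of_card_le h3 (by rw [hT]; exact h4)).symm
  let J : Set (Finset (Fin 6) × Ch) := {s | p ⊆ s.1 ∧ Forced p s.1 s.2}
  have hJ : ∀ s ∈ J, ∀ t, t ≠ s → ∀ x ∈ X s, ∀ y ∈ X t, y ∉ connectedComponent x := by
    rintro ⟨T, z⟩ ⟨hpT, hF⟩ ⟨T₂, z₂⟩ hne ⟨x, hx⟩ ⟨hT, hKx, hzx⟩ ⟨y, hy⟩ ⟨hT₂, hKy, hzy⟩ hconn
    simp only at hpT hF hT hKx hzx hT₂ hKy hzy
    let Q : Set ℂ := Subtype.val '' connectedComponent (⟨x, hx⟩ : E)
    have hQ : IsPreconnected Q :=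
      isPreconnected_connectedComponent.image _ continuous_subtype_val.continuousOn
    have hQE : Q ⊆ E := by rintro _ ⟨w, -, rfl⟩; exact w.2
    have hQB : Q ⊆ B := hQE.trans hEB
    have hQp : ∀ z ∈ Q, ∀ i ∈ p, i ∈ V z := fun z hz => (hQE hz).2
    have hxQ : x ∈ Q := ⟨⟨x, hx⟩, mem_connectedComponent, rfl⟩
    have hyQ : y ∈ Q := ⟨⟨y, hy⟩, hconn, rfl⟩
    have hdist := small Q (fun z hz => (hQE hz).1) hQ hQp x hxQ y hyQ
    have hcx : (Kf V x).card = 3 := by rw [hKx]; exact hT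
    have hcy : (Kf V y).card = 3 := by rw [hKy]; exact hT₂
    have hrule := fun s hs => zc_rule h g hQ hQB hp hQp hxQ hyQ hdist hcx hcy s hs
    have hadm : Adm T₂ z₂ := by
      rw [← hKy, ← hzy]; exact zc_adm h g (hEB hy) hcy
    have hpT₂ : p ⊆ T₂ := by
      intro i hi; rw [← hKy, mem_Kf]; exact hy.2 i hi
    have hTT : T₂ = T := forced_unique hp hT hT₂ hpT hpT₂ hF hadm (fun hTne s hs => by
      rw [← hzy, ← hzx]
      exact (hrule s hs).2 (by rw [hKy, hKx]; exact hTne))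
    apply hne
    rw [Prod.mk.injEq]
    refine ⟨hTT, ?_⟩
    rw [← hzy, ← hzx]
    funext s
    by_cases hs : s.card = 3
    · exact (hrule s hs).1 (by rw [hKy, hKx]; exact hTT)
    · unfold zc; rw [ofF_ne hs, ofF_ne hs]
  have hfin : Finite (Finset (Fin 6) × Ch) := inferInstance
  obtain ⟨N, hNc, hNX, hNd, hNN, hNe⟩ := exists_clopen_family X hXc J hJ
  -- the label on `E`
  let L : E → ZMod 2 := fun x => if hh : ∃ s, s ∈ J ∧ x ∈ N s then
    chi p hh.choose.1 hh.choose.2 else psi p (zc V lam (x : ℂ))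
  have hL1 : ∀ x : E, ∀ s ∈ J, x ∈ N s → L x = chi p s.1 s.2 := by
    intro x s hs hxs
    have hh : ∃ s, s ∈ J ∧ x ∈ N s := ⟨s, hs, hxs⟩
    have he : hh.choose = s := by
      by_contra hcon
      exact Set.disjoint_left.1 (hNN _ _ hcon) hh.choose_spec.2 hxs
    simp only [L, dif_pos hh, he]
  have hL2 : ∀ x : E, (∀ s ∈ J, x ∉ N s) → L x = psi p (zc V lam (x : ℂ)) := by
    intro x hx
    have hh : ¬ ∃ s, s ∈ J ∧ x ∈ N s := by
      rintro ⟨s, hs, hxs⟩; exact hx s hs hxs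
    simp only [L, dif_neg hh]
  have hLloc : ∀ x : E, ∀ᶠ y in 𝓝 x, L y = L x := by
    intro x
    by_cases hh : ∃ s, s ∈ J ∧ x ∈ N s
    · obtain ⟨s, hs, hxs⟩ := hh
      filter_upwards [(hNc s).isOpen.mem_nhds hxs] with y hy
      rw [hL1 y s hs hy, hL1 x s hs hxs]
    · push Not at hh
      have h1 : ∀ᶠ y in 𝓝 x, ∀ s, y ∉ N s ∨ s ∉ J := by
        rw [eventually_all]
        intro s
        by_cases hs : s ∈ J
        · filter_upwards [(hNc s).compl.isOpen.mem_nhds (hh s hs)] with y hy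
          exact Or.inl hy
        · exact Eventually.of_forall fun y => Or.inr hs
      have h2 : ∀ᶠ y : E in 𝓝 x, (y : ℂ) ∈ B → (∀ i ∈ p, i ∈ V (y : ℂ)) →
          ∀ s : Finset (Fin 6), s.card = 3 → ¬ Disjoint s p →
            zc V lam (y : ℂ) s = zc V lam (x : ℂ) s :=
        Tendsto.eventually (p := fun y => y ∈ B → (∀ i ∈ p, i ∈ V y) →
          ∀ s : Finset (Fin 6), s.card = 3 → ¬ Disjoint s p →
            zc V lam y s = zc V lam (x : ℂ) s)
          (continuous_subtype_val.tendsto x) (zc_loc hb (hEB x.2) x.2.2)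
      filter_upwards [h1, h2] with y hy1 hy2
      rw [hL2 x hh, hL2 y (fun s hs hys => (hy1 s).elim (fun h => h hys) (fun h => h hs))]
      exact psi_congr hp fun s hs hd => hy2 (hEB y.2) y.2.2 s hs hd
  refine ⟨fun x => if hx : x ∈ E then L ⟨x, hx⟩ else 0, fun x hx1 hx2 => ?_, fun x hx1 hx2 hT => ?_⟩
  · have hx : x ∈ E := ⟨hx1, hx2⟩
    have h1 := hLloc ⟨x, hx⟩
    rw [nhds_subtype_eq_comap, eventually_comap] at h1
    filter_upwards [h1] with y hy hy1 hy2
    have hyE : y ∈ E := ⟨hy1, hy2⟩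
    rw [dif_pos hx, dif_pos hyE]
    exact hy ⟨y, hyE⟩ rfl
  · have hx : x ∈ E := ⟨hx1, hx2⟩
    show (if hx : x ∈ E then L ⟨x, hx⟩ else 0) = _
    rw [dif_pos hx]
    have hxX : (⟨x, hx⟩ : E) ∈ X (Kf V x, zc V lam x) := ⟨hT, rfl, rfl⟩
    by_cases hF : Forced p (Kf V x) (zc V lam x)
    · have hJx : (Kf V x, zc V lam x) ∈ J := ⟨fun i hi => mem_Kf.2 (hx2 i hi), hF⟩
      rw [hL1 _ _ hJx (hNX _ hJx hxX)]
      unfold Phi
      rw [if_pos hF]
    · rw [hL2 _ fun s hs hxs => ?_]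
      · unfold Phi
        rw [if_neg hF]
      · have hne : (Kf V x, zc V lam x) ≠ s := by
          rintro rfl; exact hF hs.2
        exact Set.disjoint_left.1 (hNd s hs _ hne) hxs hxX

/-- **Final assembly.** No configuration with a three-coloured point of type `{3,4,5}`. -/
theorem cech_endF (h : LamF V K rho F B lam) (g : GeoF V K rho F B D)
    (hvB : closedBall v 1 ⊆ B)
    (usc : ∀ x, ∀ᶠ y in 𝓝 x, V y ⊆ V x) (ne : ∀ x ∈ closedBall v 1, (V x).Nonempty)
    (hv : V v = {3, 4, 5}) (hrv : ∀ x ∈ closedBall v 1, dist (rho v) (rho x) < 2)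
    (small : ∀ p : Finset (Fin 6), p.card = 2 → ∀ Q : Set ℂ, Q ⊆ closedBall v 1 →
      IsPreconnected Q →
      (∀ z ∈ Q, ∀ i ∈ p, i ∈ V z) → ∀ x ∈ Q, ∀ y ∈ Q, dist (rho x) (rho y) < 1)
    (av : ∀ y, dist y v = 1 → ∃ c ∈ V y, c ∉ V v)
    (ring : ∀ N : ℕ, ∃ n ≥ N, ∀ l : ℕ → Fin 6, (∀ k, l (k + n) = l k) →
      (∀ k : ℕ, l k ∈ V (v + cis (2 * Real.pi * k / n))) → (∀ k, l k ∉ V v) →
      ∑ k ∈ Finset.range n, (if ({l k, l (k + 1)} : Finset (Fin 6)) = {0, 1} then 1 else 0) =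
        (1 : ZMod 2)) : False := by
  classical
  have hlab : ∀ p : Finset (Fin 6), ∃ Ψ : ℂ → ZMod 2, (p = {0, 1} → ∀ x, Ψ x = 1) ∧
      ((p = {0, 2} ∨ p = {1, 2}) → ∀ x, Ψ x = 0) ∧ (p.card = 2 →
      (∀ x ∈ closedBall v 1, (∀ i ∈ p, i ∈ V x) → ∀ᶠ y in 𝓝 x,
        y ∈ closedBall v 1 → (∀ i ∈ p, i ∈ V y) → Ψ y = Ψ x) ∧
      ∀ x ∈ closedBall v 1, (∀ i ∈ p, i ∈ V x) → (Kf V x).card = 3 →
        Ψ x = Phi p (Kf V x) (zc V lam x)) := by
    intro p
    by_cases h01 : p = {0, 1}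
    · subst h01
      refine ⟨fun _ => 1, fun _ _ => rfl, fun hcon => ?_, fun _ => ⟨fun _ _ _ =>
        Eventually.of_forall fun _ _ _ => rfl, fun x _ _ _ => (Phi_01 _ _).symm⟩⟩
      exact absurd hcon (by decide)
    by_cases h02 : p = {0, 2}
    · subst h02
      exact ⟨fun _ => 0, fun hcon => absurd hcon h01, fun _ _ => rfl, fun _ => ⟨fun _ _ _ =>
        Eventually.of_forall fun _ _ _ => rfl, fun x _ _ _ => (Phi_02 _ _).symm⟩⟩
    by_cases h12 : p = {1, 2}
    · subst h12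
      exact ⟨fun _ => 0, fun hcon => absurd hcon h01, fun _ _ => rfl, fun _ => ⟨fun _ _ _ =>
        Eventually.of_forall fun _ _ _ => rfl, fun x _ _ _ => (Phi_12 _ _).symm⟩⟩
    by_cases hp : p.card = 2
    · obtain ⟨Ψ, hΨ⟩ := exists_label h g hvB usc hp (small p hp)
      exact ⟨Ψ, fun h => absurd h h01, fun h => absurd h (not_or.2 ⟨h02, h12⟩), fun _ => hΨ⟩
    · exact ⟨fun _ => 0, fun h => absurd h h01, fun _ _ => rfl, fun h => absurd h hp⟩
  choose Ψ hΨ1 hΨ0 hΨ using hlab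
  have hvv : v ∈ closedBall v 1 := mem_closedBall_self zero_le_one
  obtain ⟨N, hN⟩ := mesh_even (K := V) (v := v) (φ := fun i j x => Ψ {i, j} x) usc ne
    (fun i j x => by
      show Ψ {i, j} x = Ψ {j, i} x
      rw [Finset.pair_comm])
    (fun i j hij x hx hi hj => by
      have h1 := (hΨ {i, j} (Finset.card_pair hij)).1 x hx (by
        intro a ha
        simp only [Finset.mem_insert, Finset.mem_singleton] at ha
        rcases ha with rfl | rfl
        · exact hi
        · exact hj)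
      filter_upwards [h1] with y hy hyD hyi hyj
      refine hy hyD ?_
      intro a ha
      simp only [Finset.mem_insert, Finset.mem_singleton] at ha
      rcases ha with rfl | rfl
      · exact hyi
      · exact hyj)
    (fun x hx i j k hij hjk hik hi hj hk => by
      have hsub : ({i, j, k} : Finset (Fin 6)) ⊆ Kf V x := by
        intro a ha
        simp only [Finset.mem_insert, Finset.mem_singleton] at ha
        rw [mem_Kf]
        rcases ha with rfl | rfl | rfl
        · exact hi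
        · exact hj
        · exact hk
      have hc : ({i, j, k} : Finset (Fin 6)).card = 3 :=
        Finset.card_eq_three.2 ⟨i, j, k, hij, hik, hjk, rfl⟩
      have h3 := g.three x (hvB hx)
      rw [ncard_Kf] at h3
      have hK : {i, j, k} = Kf V x := Finset.eq_of_subset_of_card_le hsub (by rw [hc]; exact h3)
      have hT : (Kf V x).card = 3 := by rw [← hK]; exact hc
      have hI : Kf V x ≠ {0, 1, 2} := by
        intro hcon
        have h4 : V x = (V v)ᶜ := by
          rw [← coe_Kf (K := V) x, hcon, hv]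
          ext a
          simp only [Finset.coe_insert, Finset.coe_singleton, Set.mem_insert_iff,
            Set.mem_singleton_iff, Set.mem_compl_iff]
          revert a
          decide
        have hv3 : (V v).ncard = 3 := by
          rw [hv]; exact ncard_triple (by decide) (by decide) (by decide)
        have h5 := g.comp (rho v) (g.sub v (hvB hvv) (mem_closedBall_self zero_le_one)) (rho x)
          (g.sub x (hvB hx) (mem_closedBall_self zero_le_one)) (V v) hv3
          (g.face v (hvB hvv) hv3)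
          (by rw [← h4]; exact g.face x (hvB hx) (by rw [ncard_Kf]; exact hT))
        have h6 := hrv x hx
        linarith
      have h7 := sum_Phi hT hI (zc_adm h g (hvB hx) hT)
      have hmem : ∀ a ∈ ({i, j, k} : Finset (Fin 6)), a ∈ V x := fun a ha => mem_Kf.1 (hsub ha)
      have e1 := (hΨ {i, j} (Finset.card_pair hij)).2 x hx
        (fun a ha => hmem a (by simp only [Finset.mem_insert, Finset.mem_singleton] at ha ⊢; tauto)) hT
      have e2 := (hΨ {j, k} (Finset.card_pair hjk)).2 x hx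
        (fun a ha => hmem a (by simp only [Finset.mem_insert, Finset.mem_singleton] at ha ⊢; tauto)) hT
      have e3 := (hΨ {i, k} (Finset.card_pair hik)).2 x hx
        (fun a ha => hmem a (by simp only [Finset.mem_insert, Finset.mem_singleton] at ha ⊢; tauto)) hT
      show Ψ {i, j} x + Ψ {j, k} x + Ψ {i, k} x = 0
      rw [e1, e2, e3]
      obtain ⟨q1, q2, q3⟩ := pairs_of i j k hij hjk hik
      rw [hK] at q1
      rw [q1, Finset.sum_insert q2, Finset.sum_insert q3, Finset.sum_singleton] at h7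
      rw [← h7, add_assoc])
  obtain ⟨n, hn, hring⟩ := ring (max N 1)
  have hn1 : N ≤ n := (le_max_left _ _).trans hn
  have hn0 : 0 < n := lt_of_lt_of_le Nat.one_pos ((le_max_right _ _).trans hn)
  -- ring labels
  have hr : ∀ y, ∃ c, dist y v = 1 → c ∈ V y ∧ c ∉ V v := by
    intro y
    by_cases hy : dist y v = 1
    · obtain ⟨c, hc⟩ := av y hy
      exact ⟨c, fun _ => hc⟩
    · exact ⟨0, fun h => absurd h hy⟩
  choose rl hrl using hr
  let l : ℕ → Fin 6 := fun k => rl (v + cis (2 * Real.pi * k / n))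
  have hlK : ∀ k : ℕ, l k ∈ V (v + cis (2 * Real.pi * k / n)) ∧ l k ∉ V v := by
    intro k
    refine hrl _ ?_
    rw [dist_eq_norm, add_sub_cancel_left]
    exact End.norm_cis _
  have hper : ∀ k, l (k + n) = l k := by
    intro k
    have h1 := pt_period v (m := 1) hn0 1 k
    unfold pt at h1
    simp only [Nat.cast_one, div_one, Complex.ofReal_one, one_mul] at h1
    simp only [l]
    rw [h1]
  have hl012 : ∀ k, l k = 0 ∨ l k = 1 ∨ l k = 2 := by
    intro k
    have h1 := (hlK k).2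
    rw [hv] at h1
    generalize l k = a at h1
    revert h1
    revert a
    decide
  have h1 := hring l hper (fun k => (hlK k).1) (fun k => (hlK k).2)
  let c : Fin 6 → Fin 6 → ZMod 2 := fun a b => if ({a, b} : Finset (Fin 6)) = {0, 1} then 1 else 0
  have h2 := hN n hn1 l hper (fun k => (hlK k).1) c (by
    intro k hk x
    show Ψ {l k, l (k + 1)} x = if ({l k, l (k + 1)} : Finset (Fin 6)) = {0, 1} then 1 else 0
    by_cases h01 : ({l k, l (k + 1)} : Finset (Fin 6)) = {0, 1}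
    · rw [if_pos h01, hΨ1 _ h01]
    · rw [if_neg h01]
      refine hΨ0 _ ?_ x
      have ha := hl012 k
      have hb := hl012 (k + 1)
      generalize l k = a at *
      generalize l (k + 1) = b at *
      clear * - hk h01 ha hb
      revert a b
      decide)
  have h3 : ∑ k ∈ Finset.range n, (if ({l k, l (k + 1)} : Finset (Fin 6)) = {0, 1} then 1 else 0) =
      ∑ k ∈ Finset.range n, (if l k = l (k + 1) then 0 else c (l k) (l (k + 1))) := by
    refine Finset.sum_congr rfl fun k _ => ?_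
    by_cases hk : l k = l (k + 1)
    · rw [if_pos hk, if_neg]
      rw [hk]
      generalize l (k + 1) = b
      revert b
      decide
    · rw [if_neg hk]
  rw [h3, h2] at h1
  exact absurd h1 (by decide)

end Vale.Agent.P032.S5.EndF
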