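import Vale.Agent.P032.S5.H830.EndF
import Vale.Agent.P032.S5.H830.StateX
import Vale.Agent.P032.S5.H830.MeshX

/-!
# P032, carriers: final assembly on the original cover (order up to four)
-/

open Set Filter Topology Metric

noncomputable section

namespace Vale.Agent.P032.S5.EndX

open Vale.Agent.P032.Six Vale.Agent.P032.S5.Tab Vale.Agent.P032.S5.End

variable {T : ℂ → Set (Fin 6)} {Ex : Fin 6 → Fin 6 → Set ℂ} {B D : Set ℂ}
  {lam : Fin 6 → ℂ → Fin 6 → Fin 6 → ZMod 2} {v : ℂ}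

/-- the state relative to the finset `S` of colours of `x` -/
def zcb (lam : Fin 6 → ℂ → Fin 6 → Fin 6 → ZMod 2) (S : Finset (Fin 6)) (x : ℂ) : Ch :=
  ofF (zb lam (S : Set (Fin 6)) x)

/-- no exceptional pair in `p` at `x` -/
def NoEx (Ex : Fin 6 → Fin 6 → Set ℂ) (p : Finset (Fin 6)) (x : ℂ) : Prop :=
  ∀ i ∈ p, ∀ j ∈ p, i ≠ j → x ∉ Ex i j

lemma Kf_const (S : Finset (Fin 6)) (x : ℂ) : Kf (fun _ => (S : Set (Fin 6))) x = S := by
  ext i
  simp [Kf]

lemma zcb_eq_zc (S : Finset (Fin 6)) (x : ℂ) :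
    zcb lam S x = zc (fun _ => (S : Set (Fin 6))) (fun a _ => lam a x) x := rfl

lemma card_of_base {x : ℂ} {S : Finset (Fin 6)} (hS : Base T Ex x (S : Set (Fin 6))) :
    S.card = 3 := by
  have := hS.1.1
  rwa [Set.ncard_coe_finset] at this

/-- at a point of `T_i ∩ T_j` without exceptional pair the family satisfies `LamB` for `{i, j}` -/
lemma toB2 (h : LamX T Ex B lam) {x : ℂ} (hx : x ∈ B) {p : Finset (Fin 6)} (hp : p.card = 2)
    (hpT : ∀ i ∈ p, i ∈ T x) (hex : NoEx Ex p x) :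
    LamB (fun _ => (p : Set (Fin 6))) {x} (fun a _ => lam a x) where
  symm := fun a _ b c => h.symm a x b c
  diag := fun a _ b => h.diag a x b
  self := fun a _ b => h.self a x b
  loc := fun a y _ _ => Eventually.of_forall fun _ => rfl
  euler := fun a y _ ha b hb => h.euler a x hx (hpT a ha) b hb
  agree := fun y _ a ha b hb c => by
    by_cases hab : a = b
    · rw [hab]
    · exact h.agree x hx a (hpT a ha) b (hpT b hb) hab (hex a ha b hb hab) c
  wind := fun y _ a b c hab hac hbc hK d e hde hd he => by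
    exfalso
    have h1 : ((p : Set (Fin 6))).ncard = 3 := by
      rw [hK]; exact ncard_triple hab hac hbc
    rw [Set.ncard_coe_finset, hp] at h1
    omega

lemma split3 {s : Finset (Fin 6)} (hs : s.card = 3) {i : Fin 6} (his : i ∈ s) :
    ∃ q r, i ≠ q ∧ i ≠ r ∧ q ≠ r ∧ s = {i, q, r} := by
  have hc : (s.erase i).card = 2 := by rw [Finset.card_erase_of_mem his, hs]
  obtain ⟨q, r, hqr, he⟩ := Finset.card_eq_two.1 hc
  have hs2 : s = {i, q, r} := by rw [← he, Finset.insert_erase his]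
  have hiq : i ≠ q := fun hh => by
    have : q ∈ s.erase i := by rw [he]; simp
    exact (Finset.mem_erase.1 this).1 hh.symm
  have hir : i ≠ r := fun hh => by
    have : r ∈ s.erase i := by rw [he]; simp
    exact (Finset.mem_erase.1 this).1 hh.symm
  exact ⟨q, r, hiq, hir, hqr, hs2⟩

/-- the value at a triple containing a colour of `S` -/
lemma zcb_val {x : ℂ} {S : Finset (Fin 6)}
    (hb : LamB (fun _ => (S : Set (Fin 6))) {x} (fun a _ => lam a x)) {i q r : Fin 6}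
    (hiq : i ≠ q) (hir : i ≠ r) (hqr : q ≠ r) (hi : i ∈ S) :
    zcb lam S x {i, q, r} = lam i x q r := by
  rw [zcb_eq_zc, EndF.zc_eq hb (mem_singleton x) hiq hir hqr]
  exact zz_of_mem (K := fun _ => (S : Set (Fin 6))) (by exact_mod_cast hi) q r

/-- the value at a triple with distinct elements, as `zb` -/
lemma zcb_eq (h : LamX T Ex B lam) {x : ℂ} (hx : x ∈ B) {S : Finset (Fin 6)}
    (hS : Base T Ex x (S : Set (Fin 6))) {p q r : Fin 6} (hpq : p ≠ q) (hpr : p ≠ r)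
    (hqr : q ≠ r) : zcb lam S x {p, q, r} = zb lam (S : Set (Fin 6)) x p q r :=
  EndF.zc_eq (h.toB hx hS) (mem_singleton x) hpq hpr hqr

lemma zcb_isCyc (h : LamX T Ex B lam) {x : ℂ} (hx : x ∈ B) {S : Finset (Fin 6)}
    (hS : Base T Ex x (S : Set (Fin 6))) : IsCyc (zcb lam S x) :=
  EndF.zc_isCyc (h.toB hx hS) (mem_singleton x) (by rw [Kf_const]; exact card_of_base hS)

lemma zcb_compl (h : LamX T Ex B lam) {x : ℂ} (hx : x ∈ B) {S : Finset (Fin 6)}
    (hS : Base T Ex x (S : Set (Fin 6))) : zcb lam S x Sᶜ = 1 := by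
  have h1 := EndF.zc_compl (h.toB hx hS) (mem_singleton x)
    (by rw [Kf_const]; exact card_of_base hS)
  rw [Kf_const] at h1
  exact h1

/-- the support, in chain form -/
lemma zcb_supp (h : LamX T Ex B lam) {x : ℂ} (hx : x ∈ B) {S : Finset (Fin 6)}
    (hS : Base T Ex x (S : Set (Fin 6))) {s : Finset (Fin 6)}
    (hs : s.card = 3) {t : Fin 6} (ht : t ∈ s) (htS : t ∈ S) (hz : zcb lam S x s ≠ 0) :
    ∃ u ∈ closedBall x 1, Face T u (s : Set (Fin 6)) ∧
      ¬ ∀ᶠ w in 𝓝[closedBall x 1 \ {u}] u, t ∉ T w := by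
  obtain ⟨q, r, htq, htr, hqr, rfl⟩ := split3 hs ht
  rw [zcb_val (h.toB hx hS) htq htr hqr htS] at hz
  have h1 := h.supp x hx t (hS.1.2.1 (by exact_mod_cast htS)) q r htq htr hqr hz
  simpa using h1

lemma zcb_no_pair_aux (h : LamX T Ex B lam) (g : GeoX T Ex B D) {x : ℂ} (hx : x ∈ B)
    {S : Finset (Fin 6)} (hS : Base T Ex x (S : Set (Fin 6))) (s : Finset (Fin 6))
    (hs : s.card = 3) (h1 : s ≠ S) (h2 : s ≠ Sᶜ) {t : Fin 6} (ht : s ∩ S = {t})
    (hz1 : zcb lam S x s ≠ 0) (hz2 : zcb lam S x sᶜ ≠ 0) : False := by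
  have hT := card_of_base hS
  have hsc : sᶜ.card = 3 := by rw [Finset.card_compl, hs]; rfl
  have ht' : t ∈ s ∩ S := by rw [ht]; simp
  rw [Finset.mem_inter] at ht'
  have hne : sᶜ ≠ Sᶜ := fun hcon => h1 (compl_injective hcon)
  obtain ⟨t', ht''⟩ := EndF.inter_nonempty sᶜ S hsc hT hne
  rw [Finset.mem_inter] at ht''
  obtain ⟨u, hu, hFu, hnu⟩ := zcb_supp h hx hS hs ht'.1 ht'.2 hz1
  obtain ⟨u', hu', hFu', -⟩ := zcb_supp h hx hS hsc ht''.1 ht''.2 hz2
  rw [Finset.coe_compl] at hFu'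
  have hd := g.comp u (g.sub x hx hu) u' (g.sub x hx hu') (s : Set (Fin 6)) hFu hFu'
  have hd1 : dist u x ≤ 1 := hu
  have hd2 : dist u' x ≤ 1 := hu'
  have hd3 := dist_triangle_right u u' x
  obtain ⟨b, c, htb, htc, hbc, hse⟩ := split3 hs ht'.1
  have hcs : (s : Set (Fin 6)) = {t, b, c} := by rw [hse]; simp
  rw [hcs] at hFu hFu'
  have h0 := h.lens0 x hx (S : Set (Fin 6)) t b c htb htc hbc hS
    (by rw [← hcs]; exact fun hcon => h1 (Finset.coe_injective hcon))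
    (by
      rw [← hcs, ← Finset.coe_compl]
      intro hcon
      apply h2
      rw [← compl_compl s, Finset.coe_injective hcon])
    (by rw [← hcs, ← Finset.coe_inter, ht, Finset.coe_singleton]) u u' hFu hFu'
    (by linarith) (by linarith) (by linarith) hnu
  rw [hse, zcb_val (h.toB hx hS) htb htc hbc ht'.2] at hz1
  exact hz1 h0

lemma zcb_no_pair (h : LamX T Ex B lam) (g : GeoX T Ex B D) {x : ℂ} (hx : x ∈ B)
    {S : Finset (Fin 6)} (hS : Base T Ex x (S : Set (Fin 6))) (s : Finset (Fin 6))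
    (hs : s.card = 3) (h1 : s ≠ S) (h2 : s ≠ Sᶜ) : zcb lam S x s = 0 ∨ zcb lam S x sᶜ = 0 := by
  by_contra hcon
  rw [not_or] at hcon
  have hsc : sᶜ.card = 3 := by rw [Finset.card_compl, hs]; rfl
  rcases EndF.inter_cases s S hs (card_of_base hS) h1 h2 with ⟨t, ht⟩ | ⟨t, ht⟩
  · exact zcb_no_pair_aux h g hx hS s hs h1 h2 ht hcon.1 hcon.2
  · refine zcb_no_pair_aux h g hx hS sᶜ hsc (fun h3 => h2 ?_) (fun h3 => h1 (compl_injective h3)) ht
      hcon.2 (by rw [compl_compl]; exact hcon.1)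
    rw [← h3, compl_compl]

lemma zcb_adm (h : LamX T Ex B lam) (g : GeoX T Ex B D) {x : ℂ} (hx : x ∈ B)
    {S : Finset (Fin 6)} (hS : Base T Ex x (S : Set (Fin 6))) : Adm S (zcb lam S x) := by
  have hT := card_of_base hS
  have h1 := zcb_isCyc h hx hS
  have h2 := zcb_compl h hx hS
  have h3 := zcb_no_pair h g hx hS
  have h4 := parity' hT h1 h2 h3
  refine ⟨h1, h2, fun s hs => ?_⟩
  by_cases hs1 : s = S
  · left; rw [hs1]; exact h4
  · by_cases hs2 : s = Sᶜ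
    · right; rw [hs2, compl_compl]; exact h4
    · exact h3 s hs hs1 hs2

/-- the states at two bases of a connected subset of `T_p` agree on the triples meeting `p` -/
lemma zcb_eq_of_meet (h : LamX T Ex B lam) {C : Set ℂ} (hC : IsPreconnected C) (hCB : C ⊆ B)
    {p : Finset (Fin 6)} (hCp : ∀ z ∈ C, ∀ i ∈ p, i ∈ T z) {x y : ℂ} (hx : x ∈ C) (hy : y ∈ C)
    {S S' : Finset (Fin 6)} (hpS : p ⊆ S) (hpS' : p ⊆ S') (hS : Base T Ex x (S : Set (Fin 6)))
    (hS' : Base T Ex y (S' : Set (Fin 6)))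
    {s : Finset (Fin 6)} (hs : s.card = 3) (hsp : ¬ Disjoint s p) :
    zcb lam S x s = zcb lam S' y s := by
  obtain ⟨i, his, hip⟩ := Finset.not_disjoint_iff.1 hsp
  obtain ⟨q, r, hiq, hir, hqr, rfl⟩ := split3 hs his
  rw [zcb_val (h.toB (hCB hx) hS) hiq hir hqr (hpS hip),
    zcb_val (h.toB (hCB hy) hS') hiq hir hqr (hpS' hip),
    h.lam_const hC hCB (fun z hz => hCp z hz i hip) hx hy]

/-- local constancy of the functions `lam i`, `i ∈ p`, at once -/
lemma lam_loc (h : LamX T Ex B lam) {x : ℂ} (hx : x ∈ B) {p : Finset (Fin 6)}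
    (hp : ∀ i ∈ p, i ∈ T x) : ∀ᶠ y in 𝓝 x, ∀ i : Fin 6, i ∈ p → i ∈ T y → lam i y = lam i x := by
  rw [eventually_all]
  intro i
  by_cases hi : i ∈ p
  · have h2 := h.loc i x hx (hp i hi)
    rw [eventually_nhdsWithin_iff] at h2
    filter_upwards [h2] with y hy _ hyi
    exact hy hyi
  · exact Eventually.of_forall fun y h => absurd h hi

/-- **Rule** in chain form -/
lemma zcb_rule (h : LamX T Ex B lam) {C : Set ℂ}
    (hC : IsPreconnected C)
    (hCB : C ⊆ B) {p : Finset (Fin 6)} (hp : p.card = 2) (hCp : ∀ z ∈ C, ∀ i ∈ p, i ∈ T z)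
    {x y : ℂ} (hx : x ∈ C) (hy : y ∈ C)
    {S S' : Finset (Fin 6)} (hpS : p ⊆ S) (hpS' : p ⊆ S') (hS : Base T Ex x (S : Set (Fin 6)))
    (hS' : Base T Ex y (S' : Set (Fin 6)))
    (near : S' ≠ S → (∀ u, dist u x ≤ 1 → ¬ Face T u (S' : Set (Fin 6))ᶜ) ∨
      (∀ u, dist u y ≤ 1 → ¬ Face T u (S : Set (Fin 6))ᶜ))
    (s : Finset (Fin 6)) (hs : s.card = 3) :
    (S' = S → zcb lam S' y s = zcb lam S x s) ∧
      (S' ≠ S → zcb lam S' y s = zcb lam S x s + bd pᶜ s) := by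
  have hxB := hCB hx
  have hyB := hCB hy
  by_cases hd : Disjoint s p
  swap
  · have h1 := zcb_eq_of_meet h hC hCB hCp hx hy hpS hpS' hS hS' hs hd
    have h2 : bd pᶜ s = 0 := by
      have : ¬ s ⊆ pᶜ := fun h => hd (Finset.disjoint_left.2 fun a ha => Finset.mem_compl.1 (h ha))
      simp [bd, this]
    exact ⟨fun _ => h1.symm, fun _ => by rw [h1, h2, add_zero]⟩
  obtain ⟨i, j, hij, rfl⟩ := Finset.card_eq_two.1 hp
  have hCi : ∀ z ∈ C, i ∈ T z := fun z hz => hCp z hz i (by simp)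
  have hCj : ∀ z ∈ C, j ∈ T z := fun z hz => hCp z hz j (by simp)
  -- palettes
  have third : ∀ A : Finset (Fin 6), A.card = 3 → {i, j} ⊆ A → ∃ k, i ≠ k ∧ j ≠ k ∧
      A = {i, j, k} := by
    intro A hT hsub
    have h1 : (A \ {i, j}).card = 1 := by
      rw [Finset.card_sdiff_of_subset hsub, hT, Finset.card_pair hij]
    obtain ⟨k, hk⟩ := Finset.card_eq_one.1 h1
    have hk2 : k ∈ A \ {i, j} := by rw [hk]; simp
    simp only [Finset.mem_sdiff, Finset.mem_insert, Finset.mem_singleton, not_or] at hk2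
    refine ⟨k, fun h => hk2.2.1 h.symm, fun h => hk2.2.2 h.symm, ?_⟩
    rw [← Finset.sdiff_union_of_subset hsub, hk]
    ext a; simp; tauto
  obtain ⟨k, hik, hjk, hKx⟩ := third S (card_of_base hS) hpS
  obtain ⟨l, hil, hjl, hKy⟩ := third S' (card_of_base hS') hpS'
  have hbd : bd ({i, j} : Finset (Fin 6))ᶜ s = 1 := by
    have : s ⊆ ({i, j} : Finset (Fin 6))ᶜ := by
      intro a ha; rw [Finset.mem_compl]; exact Finset.disjoint_left.1 hd ha
    unfold bd
    rw [if_pos this]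
  have hsx : (S : Set (Fin 6)) = {i, j, k} := by rw [hKx]; simp
  have hsy : (S' : Set (Fin 6)) = {i, j, l} := by rw [hKy]; simp
  by_cases hkl : k = l
  · subst hkl
    refine ⟨fun _ => ?_, fun hne => absurd (hKy.trans hKx.symm) hne⟩
    obtain ⟨l, m, n, hnd⟩ := six_of_pair i j k hij hik hjk
    obtain ⟨e1, e2, e3, e4⟩ := h.rule_same hC hCB hnd hCi hCj hx hy hS hS' hsx hsy
    obtain ⟨⟨-, -, hil, him, hin⟩, ⟨-, hjl, hjm, hjn⟩, ⟨hkl, hkm, hkn⟩, ⟨hlm, hln⟩, hmn⟩ :=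
      nodup6 hnd
    rcases four_cases hnd hs hd with rfl | rfl | rfl | rfl
    · rw [zcb_eq h hyB hS' hlm hln hmn, zcb_eq h hxB hS hlm hln hmn, e1]
    · rw [zcb_eq h hyB hS' hkl hkm hlm, zcb_eq h hxB hS hkl hkm hlm, e2]
    · rw [zcb_eq h hyB hS' hkl hkn hln, zcb_eq h hxB hS hkl hkn hln, e3]
    · rw [zcb_eq h hyB hS' hkm hkn hmn, zcb_eq h hxB hS hkm hkn hmn, e4]
  · have hnd4 : [i, j, k, l].Nodup := by
      simp [hij, hik, hil, hjk, hjl, hkl]
    obtain ⟨m, n, hnd⟩ := six_of_four i j k l hnd4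
    have hSne : S' ≠ S := by
      intro heq
      rw [hKy, hKx] at heq
      have : l ∈ ({i, j, k} : Finset (Fin 6)) := by rw [← heq]; simp
      simp only [Finset.mem_insert, Finset.mem_singleton] at this
      rcases this with h | h | h
      · exact hil h.symm
      · exact hjl h.symm
      · exact hkl h.symm
    obtain ⟨e1, e2, e3, e4⟩ := h.rule_diff hC hCB hnd hCi hCj hx hy hS hS' hsx hsy (near hSne)
    obtain ⟨⟨-, -, hil, him, hin⟩, ⟨-, hjl, hjm, hjn⟩, ⟨hkl, hkm, hkn⟩, ⟨hlm, hln⟩, hmn⟩ :=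
      nodup6 hnd
    refine ⟨fun heq => absurd heq hSne, fun _ => ?_⟩
    · rw [hbd]
      have key : ∀ a b : ZMod 2, a = b + 1 → b = a + 1 := by decide
      rcases four_cases hnd hs hd with rfl | rfl | rfl | rfl
      · rw [zcb_eq h hyB hS' hlm hln hmn, zcb_eq h hxB hS hlm hln hmn]; exact key _ _ e1
      · rw [zcb_eq h hyB hS' hkl hkm hlm, zcb_eq h hxB hS hkl hkm hlm]; exact key _ _ e2
      · rw [zcb_eq h hyB hS' hkl hkn hln, zcb_eq h hxB hS hkl hkn hln]; exact key _ _ e3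
      · rw [zcb_eq h hyB hS' hkm hkn hmn, zcb_eq h hxB hS hkm hkn hmn]; exact key _ _ e4

/-- faces are closed -/
lemma face_closed (usc : ∀ x, ∀ᶠ y in 𝓝 x, T y ⊆ T x) {s : Set (Fin 6)} (hs : s.ncard = 3)
    {x : ℂ} (hx : ¬ Face T x s) : ∀ᶠ y in 𝓝 x, ¬ Face T y s := by
  by_cases h1 : s ⊆ T x
  · have h2 : ∃ y, dist y x = 1 ∧ T y ⊆ s := by
      by_contra hcon
      push Not at hcon
      exact hx ⟨hs, h1, hcon⟩
    obtain ⟨y, hy, hTy⟩ := h2
    obtain ⟨r, hr, h3⟩ := Metric.eventually_nhds_iff.1 (usc y)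
    filter_upwards [Metric.ball_mem_nhds x hr] with w hw hFw
    refine hFw.2.2 (y + (w - x)) ?_ ((h3 ?_).trans hTy)
    · rw [dist_eq_norm] at hy ⊢
      rwa [show y + (w - x) - w = y - x by ring]
    · rw [dist_eq_norm, show y + (w - x) - y = w - x by ring, ← dist_eq_norm]
      exact hw
  · filter_upwards [usc x] with y hy hF
    exact h1 (hF.2.1.trans hy)

/-- bases are closed -/
lemma base_closed (g : GeoX T Ex B D) (usc : ∀ x, ∀ᶠ y in 𝓝 x, T y ⊆ T x) {s : Set (Fin 6)}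
    (hs : s.ncard = 3) {x : ℂ} (hxB : x ∈ B) (hx : ¬ Base T Ex x s) :
    ∀ᶠ y in 𝓝 x, ¬ Base T Ex y s := by
  by_cases h1 : Face T x s
  · have h2 : ∃ i ∈ s, ∃ j ∈ s, i ≠ j ∧ x ∈ Ex i j := by
      by_contra hcon
      push Not at hcon
      exact hx ⟨h1, hcon⟩
    obtain ⟨i, hi, j, hj, hij, hxi⟩ := h2
    filter_upwards [g.exc x hxB i j hij (h1.2.1 hi) (h1.2.1 hj) hxi] with y hy hB
    exact hB.2 i hi j hj hij (hy (hB.1.2.1 hi) (hB.1.2.1 hj)).2
  · filter_upwards [face_closed usc hs h1] with y hy hB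
    exact hy hB.1

/-- **the labels over the pair `p`** -/
theorem exists_label (h : LamX T Ex B lam) (g : GeoX T Ex B D)
    (hvB : closedBall v 1 ⊆ B)
    (usc : ∀ x, ∀ᶠ y in 𝓝 x, T y ⊆ T x) {p : Finset (Fin 6)} (hp : p.card = 2)
    (near : ∀ Q : Set ℂ, Q ⊆ closedBall v 1 → IsPreconnected Q → (∀ z ∈ Q, ∀ i ∈ p, i ∈ T z) →
      (∀ z ∈ Q, ∀ i ∈ p, ∀ j ∈ p, i ≠ j → z ∉ Ex i j) → ∀ x ∈ Q, ∀ y ∈ Q, ∀ S S' : Set (Fin 6),
      Base T Ex x S → Base T Ex y S' → (∀ i ∈ p, i ∈ S) → (∀ i ∈ p, i ∈ S') → S ≠ S' →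
      (∀ u, dist u x ≤ 1 → ¬ Face T u S'ᶜ) ∨ (∀ u, dist u y ≤ 1 → ¬ Face T u Sᶜ)) :
    ∃ Ψ : ℂ → ZMod 2, (∀ x ∈ closedBall v 1, (∀ i ∈ p, i ∈ T x) → NoEx Ex p x → ∀ᶠ y in 𝓝 x,
        y ∈ closedBall v 1 → (∀ i ∈ p, i ∈ T y) → Ψ y = Ψ x) ∧
      ∀ x ∈ closedBall v 1, ∀ S : Finset (Fin 6), p ⊆ S → Base T Ex x (S : Set (Fin 6)) →
        Ψ x = Phi p S (zcb lam S x) := by
  classical
  let E : Set ℂ := {x | x ∈ closedBall v 1 ∧ (∀ i ∈ p, i ∈ T x) ∧ NoEx Ex p x}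
  have hEB : E ⊆ B := fun x hx => hvB hx.1
  -- points of `T_p` near a point of `E` are not exceptional
  have hexo : ∀ x ∈ E, ∀ᶠ y in 𝓝 x, (∀ i ∈ p, i ∈ T y) → NoEx Ex p y := by
    intro x hx
    have h1 : ∀ᶠ y in 𝓝 x, ∀ i j : Fin 6, i ∈ p → j ∈ p → i ≠ j → i ∈ T y → j ∈ T y →
        y ∉ Ex i j := by
      rw [eventually_all]
      intro i
      rw [eventually_all]
      intro j
      by_cases hh : i ∈ p ∧ j ∈ p ∧ i ≠ j
      · filter_upwards [g.exo x (hEB hx) i j hh.2.2 (hx.2.1 i hh.1) (hx.2.1 j hh.2.1)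
          (hx.2.2 i hh.1 j hh.2.1 hh.2.2)] with y hy _ _ _
        exact hy
      · exact Eventually.of_forall fun y a b c => absurd ⟨a, b, c⟩ hh
    filter_upwards [h1] with y hy hyp i hi j hj hij
    exact hy i j hi hj hij (hyp i hi) (hyp j hj)
  have hEcl : IsClosed E := by
    rw [← isOpen_compl_iff, isOpen_iff_mem_nhds]
    intro x hx
    by_cases hxb : x ∈ closedBall v 1
    swap
    · filter_upwards [isClosed_closedBall.isOpen_compl.mem_nhds hxb] with y hy hyE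
      exact hy hyE.1
    by_cases hxp : ∀ i ∈ p, i ∈ T x
    swap
    · filter_upwards [(isClosed_pal usc p).isOpen_compl.mem_nhds hxp] with y hy hyE
      exact hy hyE.2.1
    have h2 : ∃ i ∈ p, ∃ j ∈ p, i ≠ j ∧ x ∈ Ex i j := by
      by_contra hcon
      push Not at hcon
      exact hx ⟨hxb, hxp, hcon⟩
    obtain ⟨i, hi, j, hj, hij, hxi⟩ := h2
    filter_upwards [g.exc x (hvB hxb) i j hij (hxp i hi) (hxp j hj) hxi] with y hy hyE
    exact hyE.2.2 i hi j hj hij (hy (hyE.2.1 i hi) (hyE.2.1 j hj)).2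
  have hEc : IsCompact E := (isCompact_closedBall v 1).of_isClosed_subset hEcl fun x hx => hx.1
  have : CompactSpace E := isCompact_iff_compactSpace.1 hEc
  let X : Finset (Fin 6) × Ch → Set E := fun s =>
    {x | s.1.card = 3 ∧ p ⊆ s.1 ∧ Base T Ex (x : ℂ) (s.1 : Set (Fin 6)) ∧
      zcb lam s.1 (x : ℂ) = s.2}
  -- local constancy of the state at bases
  have hloc3 : ∀ x ∈ E, ∀ S : Finset (Fin 6), Base T Ex x (S : Set (Fin 6)) → ∀ᶠ y in 𝓝 x,
      y ∈ E → Base T Ex y (S : Set (Fin 6)) → zcb lam S y = zcb lam S x := by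
    intro x hx S hS
    have h1 := lam_loc h (hEB hx) (p := S) (fun i hi => hS.1.2.1 (by exact_mod_cast hi))
    filter_upwards [h1] with y hy hyE hyS
    funext s
    by_cases hs : s.card = 3
    · by_cases hd : Disjoint s S
      · have hsc : s = Sᶜ := by
          refine Finset.eq_of_subset_of_card_le (fun a ha => Finset.mem_compl.2
            (Finset.disjoint_left.1 hd ha)) ?_
          rw [Finset.card_compl, card_of_base hS, hs]; rfl
        rw [hsc, zcb_compl h (hEB hx) hS, zcb_compl h (hEB hyE) hyS]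
      · obtain ⟨i, his, hiS⟩ := Finset.not_disjoint_iff.1 hd
        obtain ⟨q, r, hiq, hir, hqr, rfl⟩ := split3 hs his
        rw [zcb_val (h.toB (hEB hyE) hyS) hiq hir hqr hiS,
          zcb_val (h.toB (hEB hx) hS) hiq hir hqr hiS,
          hy i hiS (hyS.1.2.1 (by exact_mod_cast hiS))]
    · unfold zcb; rw [ofF_ne hs, ofF_ne hs]
  have hXc : ∀ s, IsClosed (X s) := by
    rintro ⟨S, z⟩
    rw [← isOpen_compl_iff, isOpen_iff_mem_nhds]
    rintro ⟨y, hy⟩ hyX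
    rw [mem_compl_iff] at hyX
    simp only [X, mem_ofPred_eq] at hyX
    by_cases hT : S.card = 3 ∧ p ⊆ S
    swap
    · filter_upwards with x hx
      exact hT ⟨hx.1, hx.2.1⟩
    by_cases hBy : Base T Ex y (S : Set (Fin 6))
    · have hzy : zcb lam S y ≠ z := fun h => hyX ⟨hT.1, hT.2, hBy, h⟩
      have h2 : ∀ᶠ x : E in 𝓝 ⟨y, hy⟩, (x : ℂ) ∈ E → Base T Ex (x : ℂ) (S : Set (Fin 6)) →
          zcb lam S (x : ℂ) = zcb lam S y :=
        Tendsto.eventually (p := fun x => x ∈ E → Base T Ex x (S : Set (Fin 6)) →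
          zcb lam S x = zcb lam S y)
          (continuous_subtype_val.tendsto (⟨y, hy⟩ : E)) (hloc3 y hy S hBy)
      filter_upwards [h2] with x hx2 hx
      exact hzy (by rw [← hx2 x.2 hx.2.2.1, hx.2.2.2])
    · have h1 : ∀ᶠ x : E in 𝓝 ⟨y, hy⟩, ¬ Base T Ex (x : ℂ) (S : Set (Fin 6)) :=
        Tendsto.eventually (p := fun x => ¬ Base T Ex x (S : Set (Fin 6)))
          (continuous_subtype_val.tendsto (⟨y, hy⟩ : E))
          (base_closed g usc (by rw [Set.ncard_coe_finset]; exact hT.1) (hEB hy) hBy)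
      filter_upwards [h1] with x hx1 hx
      exact hx1 hx.2.2.1
  let J : Set (Finset (Fin 6) × Ch) := {s | p ⊆ s.1 ∧ Forced p s.1 s.2}
  have hJ : ∀ s ∈ J, ∀ t, t ≠ s → ∀ x ∈ X s, ∀ y ∈ X t, y ∉ connectedComponent x := by
    rintro ⟨S, z⟩ ⟨hpT, hF⟩ ⟨S₂, z₂⟩ hne ⟨x, hx⟩ ⟨hT, hpS, hSx, hzx⟩ ⟨y, hy⟩
      ⟨hT₂, hpS₂, hSy, hzy⟩ hconn
    simp only at hpT hF hT hpS hSx hzx hT₂ hpS₂ hSy hzy
    let Q : Set ℂ := Subtype.val '' connectedComponent (⟨x, hx⟩ : E)
    have hQ : IsPreconnected Q :=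
      isPreconnected_connectedComponent.image _ continuous_subtype_val.continuousOn
    have hQE : Q ⊆ E := by rintro _ ⟨w, -, rfl⟩; exact w.2
    have hQB : Q ⊆ B := hQE.trans hEB
    have hQp : ∀ z ∈ Q, ∀ i ∈ p, i ∈ T z := fun z hz => (hQE hz).2.1
    have hxQ : x ∈ Q := ⟨⟨x, hx⟩, mem_connectedComponent, rfl⟩
    have hyQ : y ∈ Q := ⟨⟨y, hy⟩, hconn, rfl⟩
    have hnear : S₂ ≠ S → _ := fun hne => near Q (fun z hz => (hQE hz).1) hQ hQp
      (fun z hz => (hQE hz).2.2) x hxQ y hyQ (S : Set (Fin 6)) (S₂ : Set (Fin 6)) hSx hSy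
      (fun i hi => by exact_mod_cast hpS hi) (fun i hi => by exact_mod_cast hpS₂ hi)
      (fun hcon => hne (Finset.coe_injective hcon).symm)
    have hrule := fun s hs => zcb_rule h hQ hQB hp hQp hxQ hyQ hpS hpS₂ hSx hSy hnear s hs
    have hadm : Adm S₂ z₂ := by
      rw [← hzy]; exact zcb_adm h g (hEB hy) hSy
    have hTT : S₂ = S := forced_unique hp hT hT₂ hpT hpS₂ hF hadm (fun hTne s hs => by
      rw [← hzy, ← hzx]
      exact (hrule s hs).2 hTne)
    apply hne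
    rw [Prod.mk.injEq]
    refine ⟨hTT, ?_⟩
    rw [← hzy, ← hzx]
    funext s
    by_cases hs : s.card = 3
    · exact (hrule s hs).1 hTT
    · unfold zcb; rw [ofF_ne hs, ofF_ne hs]
  have hfin : Finite (Finset (Fin 6) × Ch) := inferInstance
  obtain ⟨N, hNc, hNX, hNd, hNN, hNe⟩ := exists_clopen_family X hXc J hJ
  -- the label on `E`
  let L : E → ZMod 2 := fun x => if hh : ∃ s, s ∈ J ∧ x ∈ N s then
    chi p hh.choose.1 hh.choose.2 else psi p (zcb lam p (x : ℂ))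
  have hL1 : ∀ x : E, ∀ s ∈ J, x ∈ N s → L x = chi p s.1 s.2 := by
    intro x s hs hxs
    have hh : ∃ s, s ∈ J ∧ x ∈ N s := ⟨s, hs, hxs⟩
    have he : hh.choose = s := by
      by_contra hcon
      exact Set.disjoint_left.1 (hNN _ _ hcon) hh.choose_spec.2 hxs
    simp only [L, dif_pos hh, he]
  have hL2 : ∀ x : E, (∀ s ∈ J, x ∉ N s) → L x = psi p (zcb lam p (x : ℂ)) := by
    intro x hx
    have hh : ¬ ∃ s, s ∈ J ∧ x ∈ N s := by
      rintro ⟨s, hs, hxs⟩; exact hx s hs hxs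
    simp only [L, dif_neg hh]
  have hLloc : ∀ x : E, ∀ᶠ y in 𝓝 x, L y = L x := by
    intro x
    by_cases hh : ∃ s, s ∈ J ∧ x ∈ N s
    · obtain ⟨s, hs, hxs⟩ := hh
      filter_upwards [(hNc s).isOpen.mem_nhds hxs] with y hy
      rw [hL1 y s hs hy, hL1 x s hs hxs]
    · push Not at hh
      have h1 : ∀ᶠ y in 𝓝 x, ∀ s, y ∉ N s ∨ s ∉ J := by
        rw [eventually_all]
        intro s
        by_cases hs : s ∈ J
        · filter_upwards [(hNc s).compl.isOpen.mem_nhds (hh s hs)] with y hy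
          exact Or.inl hy
        · exact Eventually.of_forall fun y => Or.inr hs
      have h2 : ∀ᶠ y : E in 𝓝 x, ∀ i : Fin 6, i ∈ p → i ∈ T (y : ℂ) →
          lam i (y : ℂ) = lam i (x : ℂ) :=
        Tendsto.eventually (p := fun y => ∀ i : Fin 6, i ∈ p → i ∈ T y →
          lam i y = lam i (x : ℂ))
          (continuous_subtype_val.tendsto x) (lam_loc h (hEB x.2) x.2.2.1)
      filter_upwards [h1, h2] with y hy1 hy2
      rw [hL2 x hh, hL2 y (fun s hs hys => (hy1 s).elim (fun h => h hys) (fun h => h hs))]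
      refine psi_congr hp fun s hs hd => ?_
      obtain ⟨i, his, hip⟩ := Finset.not_disjoint_iff.1 hd
      obtain ⟨q, r, hiq, hir, hqr, rfl⟩ := split3 hs his
      rw [zcb_val (toB2 h (hEB y.2) hp y.2.2.1 y.2.2.2) hiq hir hqr hip,
        zcb_val (toB2 h (hEB x.2) hp x.2.2.1 x.2.2.2) hiq hir hqr hip,
        hy2 i hip (y.2.2.1 i hip)]
  refine ⟨fun x => if hx : x ∈ E then L ⟨x, hx⟩ else 0, fun x hx1 hx2 hx3 => ?_,
    fun x hx1 S hpS hS => ?_⟩
  · have hx : x ∈ E := ⟨hx1, hx2, hx3⟩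
    have h1 := hLloc ⟨x, hx⟩
    rw [nhds_subtype_eq_comap, eventually_comap] at h1
    filter_upwards [h1, hexo x hx] with y hy hyx hy1 hy2
    have hyE : y ∈ E := ⟨hy1, hy2, hyx hy2⟩
    rw [dif_pos hx, dif_pos hyE]
    exact hy ⟨y, hyE⟩ rfl
  · have hx2 : ∀ i ∈ p, i ∈ T x := fun i hi => hS.1.2.1 (by exact_mod_cast hpS hi)
    have hx3 : NoEx Ex p x := fun i hi j hj hij =>
      hS.2 i (by exact_mod_cast hpS hi) j (by exact_mod_cast hpS hj) hij
    have hx : x ∈ E := ⟨hx1, hx2, hx3⟩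
    have hT := card_of_base hS
    show (if hx : x ∈ E then L ⟨x, hx⟩ else 0) = _
    rw [dif_pos hx]
    have hxX : (⟨x, hx⟩ : E) ∈ X (S, zcb lam S x) := ⟨hT, hpS, hS, rfl⟩
    by_cases hF : Forced p S (zcb lam S x)
    · have hJx : (S, zcb lam S x) ∈ J := ⟨hpS, hF⟩
      rw [hL1 _ _ hJx (hNX _ hJx hxX)]
      unfold Phi
      rw [if_pos hF]
    · rw [hL2 _ fun s hs hxs => ?_]
      · unfold Phi
        rw [if_neg hF]
        refine psi_congr hp fun s hs hd => ?_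
        obtain ⟨i, his, hip⟩ := Finset.not_disjoint_iff.1 hd
        obtain ⟨q, r, hiq, hir, hqr, rfl⟩ := split3 hs his
        rw [zcb_val (toB2 h (hEB hx) hp hx2 hx3) hiq hir hqr hip,
          zcb_val (h.toB (hEB hx) hS) hiq hir hqr (hpS hip)]
      · have hne : (S, zcb lam S x) ≠ s := by
          rintro rfl; exact hF hs.2
        exact Set.disjoint_left.1 (hNd s hs _ hne) hxs hxX

end Vale.Agent.P032.S5.EndX
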