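import Vale.Agent.P032.S5.H830.StateX
import Vale.Agent.P032.S5.H11.Mesh2
import Vale.Agent.P032.Carr.Supp

/-!
# P032, carriers: the final ring at a base with four-coloured points on its circle

From the odd rings of the apex covers (`hring` of `lamX_of`) and the local form of the palette at
the pinched points of the circle: the ring hypothesis of `cech_endH`.
-/

open Set Filter Topology Metric

noncomputable section

namespace Vale.Agent.P032.S5.EndX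

open Vale.Agent.P032.Six Vale.Agent.P032.S5.End Vale.Agent.P032.Carr

variable {T : ℂ → Set (Fin 6)} {Ex : Fin 6 → Fin 6 → Set ℂ} {Z : Set ℂ} {f : ℂ → Set (Fin 6)}
  {δ₀ : ℝ} {v : ℂ}

theorem eps_eq {d e : Fin 6} (hde : d ≠ e) (a b : Fin 6) :
    S5.eps a b {d, e} = if ({a, b} : Finset (Fin 6)) = {d, e} then 1 else 0 := by
  revert d e a b
  decide

/-- exceptional points near the circle are near exceptional points of the circle -/
theorem near_circle (hZ : IsCompact Z) {r : ℝ} (hr : 0 < r) : ∃ ρ > 0, ∀ z ∈ Z, ∀ y, dist y v = 1 →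
    dist y z ≤ ρ → ∃ z₀ ∈ Z, dist z₀ v = 1 ∧ dist z z₀ < r := by
  have hC : IsClosed (Z \ ⋃ z₀ ∈ {z | z ∈ Z ∧ dist z v = 1}, ball z₀ r) :=
    hZ.isClosed.sdiff (isOpen_biUnion fun _ _ => isOpen_ball)
  have hd : Disjoint (sphere v 1) (Z \ ⋃ z₀ ∈ {z | z ∈ Z ∧ dist z v = 1}, ball z₀ r) := by
    rw [Set.disjoint_left]
    rintro z hz ⟨hzZ, hzn⟩
    exact hzn (mem_biUnion (show z ∈ {z | z ∈ Z ∧ dist z v = 1} from ⟨hzZ, hz⟩)
      (mem_ball_self hr))
  obtain ⟨ρ, hρ, hdis⟩ := hd.exists_thickenings (isCompact_sphere v 1) hC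
  refine ⟨ρ / 2, by positivity, fun z hz y hy hyz => ?_⟩
  by_contra hcon
  push Not at hcon
  have h1 : z ∈ Z \ ⋃ z₀ ∈ {z | z ∈ Z ∧ dist z v = 1}, ball z₀ r := by
    refine ⟨hz, fun h => ?_⟩
    simp only [mem_iUnion, exists_prop, mem_ball] at h
    obtain ⟨z₀, hz₀, hd⟩ := h
    exact absurd hd (not_lt.2 (hcon z₀ hz₀.1 hz₀.2))
  exact Set.disjoint_left.1 hdis
    (mem_thickening_iff.2 ⟨y, hy, by rw [dist_comm]; linarith⟩)
    (self_subset_thickening hρ _ h1)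

/-- **the final ring**, four-coloured points on the circle allowed -/
theorem ring_ofH (H : Hm T Z f δ₀) {S : Set (Fin 6)} (hv : Face T v S) {d e : Fin 6} (hde : d ≠ e)
    (hap : ∀ z ∈ Z, dist z v = 1 → ∃ i, i ∈ T z ∧ i ∉ f z ∧ i ∉ S)
    (hEx : ∀ z ∈ Z, ∀ i j, i ≠ j → z ∈ Ex i j → f z = {i, j})
    (R2 : ∀ y, y ∉ Z → dist y v = 1 → ∀ i j, i ≠ j → i ∉ S → j ∉ S → i ∈ T y → j ∈ T y →
      y ∈ Ex i j → ∃ t ∈ T y, t ∉ S ∧ ∀ᶠ y' in 𝓝 y, dist y' v = 1 → y' ≠ y →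
        ∀ m ∈ T y', m ∈ S ∨ m = t)
    (hW : ∀ᶠ δ in 𝓝[>] (0 : ℝ), ∀ᶠ j : ℕ in atTop, ∀ h : ℕ → Fin 6, h (6 * 2 ^ j) = h 0 →
      (∀ k ≤ 6 * 2 ^ j, h k ∈ apx T Z δ (hp T f S) (S5.pt v j (2 ^ j) k) ∧ h k ∉ S) →
        ∑ k ∈ Finset.range (6 * 2 ^ j), S5.eps (h k) (h (k + 1)) {d, e} = 1) :
    ∀ δ > 0, ∀ N : ℕ, ∃ n ≥ N, ∃ (l : ℕ → Fin 6) (P : ℕ → ℂ), (∀ k, l (k + n) = l k) ∧
      (∀ k, P (k + n) = P k) ∧
      (∀ k : ℕ, P k ∈ closedBall v 1 ∧ dist (P k) (v + cis (2 * Real.pi * k / n)) < δ ∧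
        l k ∈ T (P k)) ∧
      (∀ k, l k ∉ S) ∧
      (∀ k, l k ≠ l (k + 1) → ∃ w ∈ closedBall v 1, dist w (P k) < δ ∧
        l k ∈ T w ∧ l (k + 1) ∈ T w ∧ w ∉ Ex (l k) (l (k + 1))) ∧
      ∑ k ∈ Finset.range n, (if ({l k, l (k + 1)} : Finset (Fin 6)) = {d, e} then 1 else 0) =
        (1 : ZMod 2) := by
  classical
  intro ε hε N
  have hδ₀ := H.pos
  -- scales
  obtain ⟨ρ, hρ, hnear⟩ := near_circle (v := v) H.compact
    (r := min (ε / 4) (δ₀ / 4)) (lt_min (by positivity) (by positivity))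
  obtain ⟨δ, hWδ, hδ⟩ := (hW.and (Ioo_mem_nhdsGT (show (0 : ℝ) < min ρ (min (ε / 8) (δ₀ / 8)) from
    lt_min hρ (lt_min (by positivity) (by positivity))))).exists
  have hδ0 : 0 < δ := hδ.1
  have hδρ : δ < ρ := hδ.2.trans_le (min_le_left _ _)
  have hδε : δ < ε / 8 := hδ.2.trans_le ((min_le_right _ _).trans (min_le_left _ _))
  have hδδ : δ < δ₀ / 8 := hδ.2.trans_le ((min_le_right _ _).trans (min_le_right _ _))
  have hapx : ∀ z ∈ Z, dist z v = 1 → hp T f S z ∉ S := fun z hz hzv => pick_avoid (hap z hz hzv)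
  -- the colour at pinched points
  have htt : ∀ y, ∃ t, y ∉ Z → dist y v = 1 →
      (∃ i j, i ≠ j ∧ i ∉ S ∧ j ∉ S ∧ i ∈ T y ∧ j ∈ T y ∧ y ∈ Ex i j) → t ∈ T y ∧ t ∉ S ∧
        ∀ᶠ y' in 𝓝 y, dist y' v = 1 → y' ≠ y → ∀ m ∈ T y', m ∈ S ∨ m = t := by
    intro y
    by_cases hy : y ∉ Z ∧ dist y v = 1 ∧
      (∃ i j, i ≠ j ∧ i ∉ S ∧ j ∉ S ∧ i ∈ T y ∧ j ∈ T y ∧ y ∈ Ex i j)
    · obtain ⟨hyZ, hy1, i, j, hij, hi, hj, hiy, hjy, he⟩ := hy
      obtain ⟨t, ht, htS, hev⟩ := R2 y hyZ hy1 i j hij hi hj hiy hjy he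
      exact ⟨t, fun _ _ _ => ⟨ht, htS, hev⟩⟩
    · exact ⟨0, fun h1 h2 h3 => absurd ⟨h1, h2, h3⟩ hy⟩
  choose tt htt using htt
  -- labels
  have hr : ∀ y, ∃ (c : Fin 6) (p : ℂ), dist y v = 1 → dist p v = 1 ∧ c ∈ T p ∧ c ∉ S ∧
      c ∈ apx T Z δ (hp T f S) y ∧
      ((p ∈ Z ∧ dist y p < ε / 4 + ε / 8 ∧ dist y p ≤ δ + δ₀ / 4 ∧ c = hp T f S p) ∨
        (p = y ∧ (∀ z ∈ Z, δ < dist y z) ∧
          ((∃ i j, i ≠ j ∧ i ∉ S ∧ j ∉ S ∧ i ∈ T y ∧ j ∈ T y ∧ y ∈ Ex i j) → c = tt y))) := by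
    intro y
    by_cases hy : dist y v = 1
    swap
    · exact ⟨0, 0, fun h => absurd h hy⟩
    by_cases hz : ∃ z ∈ Z, dist y z ≤ δ
    · obtain ⟨z, hz, hyz⟩ := hz
      obtain ⟨z₀, hz₀, hz₀v, hzz⟩ := hnear z hz y hy (hyz.trans hδρ.le)
      have h1 : dist z z₀ < ε / 4 := hzz.trans_le (min_le_left _ _)
      have h2 : dist z z₀ < δ₀ / 4 := hzz.trans_le (min_le_right _ _)
      have h3 := dist_triangle y z z₀
      refine ⟨hp T f S z₀, z₀, fun _ => ⟨hz₀v, (H.apex hz₀ S).1, hapx z₀ hz₀ hz₀v,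
        Or.inr ⟨z, hz, hyz, H.hp_const hz hz₀ (by linarith) S⟩,
        Or.inl ⟨hz₀, by linarith, by linarith, rfl⟩⟩⟩
    · push Not at hz
      have hyZ : y ∉ Z := fun h => by
        have := hz y h
        rw [dist_self] at this
        linarith
      by_cases hb : ∃ i j, i ≠ j ∧ i ∉ S ∧ j ∉ S ∧ i ∈ T y ∧ j ∈ T y ∧ y ∈ Ex i j
      · obtain ⟨ht, htS, -⟩ := htt y hyZ hy hb
        exact ⟨tt y, y, fun _ => ⟨hy, ht, htS, Or.inl ⟨ht, fun z hz' => (hz z hz').le⟩,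
          Or.inr ⟨rfl, hz, fun _ => rfl⟩⟩⟩
      · obtain ⟨c, hc, hcS⟩ := Set.not_subset.1 (hv.2.2 y hy)
        exact ⟨c, y, fun _ => ⟨hy, hc, hcS, Or.inl ⟨hc, fun z hz' => (hz z hz').le⟩,
          Or.inr ⟨rfl, hz, fun h => absurd h hb⟩⟩⟩
  choose rl pp hrl using hr
  -- radii
  have hrad : ∀ q : sphere v 1, ∃ r > 0, r ≤ ε ∧ ((q : ℂ) ∈ Z → r ≤ δ) ∧ ((q : ℂ) ∉ Z →
      ∀ P : ℂ, dist P (q : ℂ) < r → T P ⊆ T (q : ℂ) ∧
        ((∃ i j, i ≠ j ∧ i ∉ S ∧ j ∉ S ∧ i ∈ T (q : ℂ) ∧ j ∈ T (q : ℂ) ∧ (q : ℂ) ∈ Ex i j) →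
          dist P v = 1 → P ≠ q → ∀ m ∈ T P, m ∈ S ∨ m = tt q)) := by
    rintro ⟨q, hq⟩
    by_cases hqZ : q ∈ Z
    · exact ⟨min ε δ, lt_min hε hδ0, min_le_left _ _, fun _ => min_le_right _ _,
        fun h => absurd hqZ h⟩
    by_cases hb : ∃ i j, i ≠ j ∧ i ∉ S ∧ j ∉ S ∧ i ∈ T q ∧ j ∈ T q ∧ q ∈ Ex i j
    · obtain ⟨r, hr, h3⟩ := Metric.eventually_nhds_iff.1 ((H.usc q).and (htt q hqZ hq hb).2.2)
      exact ⟨min r ε, lt_min hr hε, min_le_right _ _, fun h => absurd h hqZ, fun _ P hP =>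
        ⟨(h3 (hP.trans_le (min_le_left _ _))).1, fun _ => (h3 (hP.trans_le (min_le_left _ _))).2⟩⟩
    · obtain ⟨r, hr, h3⟩ := Metric.eventually_nhds_iff.1 (H.usc q)
      exact ⟨min r ε, lt_min hr hε, min_le_right _ _, fun h => absurd h hqZ, fun _ P hP =>
        ⟨h3 (hP.trans_le (min_le_left _ _)), fun h => absurd h hb⟩⟩
  choose r hr hrε hrδ hloc using hrad
  obtain ⟨η₀, hη₀, hB⟩ := lebesgue_number_lemma_of_metric (isCompact_sphere v 1)
    (c := fun x : sphere v 1 => ball (x : ℂ) (r x)) (fun x => isOpen_ball)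
    (fun x hx => mem_iUnion.2 ⟨⟨x, hx⟩, mem_ball_self (hr _)⟩)
  set η : ℝ := min η₀ (min (ε / 8) (δ₀ / 8)) with hη
  have hη0 : 0 < η := lt_min hη₀ (lt_min (by positivity) (by positivity))
  have hη1 : η ≤ η₀ := min_le_left _ _
  have hη2 : η ≤ ε / 8 := (min_le_right _ _).trans (min_le_left _ _)
  have hη3 : η ≤ δ₀ / 8 := (min_le_right _ _).trans (min_le_right _ _)
  -- one step
  have hstep : ∀ y y', dist y v = 1 → dist y' v = 1 → dist y' y < η → rl y ≠ rl y' →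
      ∃ w ∈ closedBall v 1, dist w (pp y) < ε ∧ rl y ∈ T w ∧ rl y' ∈ T w ∧
        w ∉ Ex (rl y) (rl y') := by
    intro y y' hy hy' hd hne
    obtain ⟨a1, a2, a3, -, a4⟩ := hrl y hy
    obtain ⟨b1, b2, b3, -, b4⟩ := hrl y' hy'
    have hd' : dist y y' < η := by rw [dist_comm]; exact hd
    rcases a4 with ⟨az, ad1, ad2, ahp⟩ | ⟨ap, afar, abad⟩
    · rcases b4 with ⟨bz, bd1, bd2, bhp⟩ | ⟨bp, bfar, bbad⟩
      · exfalso
        apply hne
        rw [ahp, bhp]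
        refine H.hp_const az bz ?_ S
        have h1 := dist_triangle_left (pp y) (pp y') y
        have h2 := dist_triangle y y' (pp y')
        linarith
      · refine ⟨pp y, mem_closedBall.2 a1.le, by rw [dist_self]; exact hε, a2, ?_, fun he => ?_⟩
        · rw [bp] at b2
          refine H.sub _ az y' ?_ b2
          have h2 := dist_triangle y' y (pp y)
          linarith
        · have h1 := hEx _ az _ _ hne he
          refine (H.apex az S).2 ?_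
          rw [h1, ← ahp]
          exact Or.inl rfl
    · rcases b4 with ⟨bz, bd1, bd2, bhp⟩ | ⟨bp, bfar, bbad⟩
      · refine ⟨pp y', mem_closedBall.2 b1.le, ?_, ?_, b2, fun he => ?_⟩
        · rw [ap]
          have h2 := dist_triangle_left (pp y') y y'
          linarith
        · rw [ap] at a2
          refine H.sub _ bz y ?_ a2
          have h2 := dist_triangle y y' (pp y')
          linarith
        · have h1 := hEx _ bz _ _ hne he
          refine (H.apex bz S).2 ?_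
          rw [h1, ← bhp]
          exact Or.inr rfl
      · obtain ⟨q, hq⟩ := hB y (mem_sphere.2 hy)
        have h1 : dist y (q : ℂ) < r q := hq (mem_ball_self hη₀)
        have h2 : dist y' (q : ℂ) < r q := hq (mem_ball.2 (hd.trans_le hη1))
        have hq1 : dist (q : ℂ) v = 1 := q.2
        have hqZ : (q : ℂ) ∉ Z := fun hqZ => by
          have h3 := afar q hqZ
          have h4 := hrδ q hqZ
          linarith
        obtain ⟨c1, c2⟩ := hloc q hqZ y h1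
        obtain ⟨d1, d2⟩ := hloc q hqZ y' h2
        rw [ap] at a2 ⊢
        rw [bp] at b2
        refine ⟨q, mem_closedBall.2 hq1.le, ?_, c1 a2, d1 b2, fun he => ?_⟩
        · rw [dist_comm]
          exact h1.trans_le (hrε q)
        · have hb : ∃ i j, i ≠ j ∧ i ∉ S ∧ j ∉ S ∧ i ∈ T (q : ℂ) ∧ j ∈ T (q : ℂ) ∧
              (q : ℂ) ∈ Ex i j := ⟨rl y, rl y', hne, a3, b3, c1 a2, d1 b2, he⟩
          have hA : rl y = tt q := by
            by_cases hc : y = q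
            · rw [abad (by rw [hc]; exact hb), hc]
            · exact (c2 hb hy hc (rl y) a2).resolve_left a3
          have hBb : rl y' = tt q := by
            by_cases hc : y' = q
            · rw [bbad (by rw [hc]; exact hb), hc]
            · exact (d2 hb hy' hc (rl y') b2).resolve_left b3
          exact hne (hA.trans hBb.symm)
  -- the mesh
  obtain ⟨M, hM⟩ := exists_nat_gt (2 * Real.pi / η)
  have hev : ∀ᶠ j : ℕ in atTop, max N (max M 1) ≤ 6 * 2 ^ j := by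
    filter_upwards [eventually_ge_atTop (max N (max M 1))] with j hj
    have h1 : j < 2 ^ j := Nat.lt_two_pow_self
    omega
  obtain ⟨j, hj, hjN⟩ := (hWδ.and hev).exists
  set n : ℕ := 6 * 2 ^ j with hn
  have hn0 : 0 < n := by positivity
  have hn0' : (0 : ℝ) < n := by exact_mod_cast hn0
  have hMn : (M : ℝ) ≤ n := by
    exact_mod_cast (le_max_left M 1).trans ((le_max_right N _).trans hjN)
  have hmesh : 2 * Real.pi / n < η := by
    rw [div_lt_iff₀ hη0] at hM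
    rw [div_lt_iff₀ hn0']
    nlinarith
  let Q : ℕ → ℂ := fun k => v + cis (2 * Real.pi * k / n)
  have hQ1 : ∀ k, dist (Q k) v = 1 := by
    intro k
    simp only [Q]
    rw [dist_eq_norm, add_sub_cancel_left]
    exact End.norm_cis _
  have hQpt : ∀ k, Q k = End.pt v 1 n 1 k := by
    intro k
    simp [Q, End.pt]
  have hQlam : ∀ k, Q k = S5.pt v j (2 ^ j) k := by
    intro k
    simp only [Q, S5.pt, cis]
    have h2 : (2 : ℝ) ^ j ≠ 0 := by positivity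
    have e1 : (((2 ^ j : ℕ) : ℝ) / 2 ^ j : ℝ) = 1 := by
      push_cast
      exact div_self h2
    have e2 : (2 * Real.pi * k / n : ℝ) = Real.pi / 3 * k / 2 ^ j := by
      rw [hn]
      push_cast
      field_simp
      ring
    rw [e1, Complex.ofReal_one, one_mul, e2]
  have hQQ : ∀ k, dist (Q (k + 1)) (Q k) < η := by
    intro k
    rw [hQpt, hQpt, dist_comm]
    exact (dist_pt_angular v Nat.one_pos hn0 le_rfl k).trans_lt hmesh
  have hQper : ∀ k, Q (k + n) = Q k := by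
    intro k
    rw [hQpt, hQpt, pt_period v hn0]
  refine ⟨n, (le_max_left _ _).trans hjN, fun k => rl (Q k), fun k => pp (Q k), fun k => ?_,
    fun k => ?_, fun k => ?_, fun k => (hrl (Q k) (hQ1 k)).2.2.1, fun k hk =>
      hstep (Q k) (Q (k + 1)) (hQ1 k) (hQ1 (k + 1)) (hQQ k) hk, ?_⟩
  · show rl (Q (k + n)) = rl (Q k)
    rw [hQper]
  · show pp (Q (k + n)) = pp (Q k)
    rw [hQper]
  · obtain ⟨a1, a2, a3, -, a4⟩ := hrl (Q k) (hQ1 k)
    refine ⟨mem_closedBall.2 a1.le, ?_, a2⟩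
    show dist (pp (Q k)) (Q k) < ε
    rcases a4 with ⟨-, ad1, -, -⟩ | ⟨ap, -, -⟩
    · rw [dist_comm]
      linarith
    · rw [ap, dist_self]
      exact hε
  · have h1 := hj (fun k => rl (Q k)) (by
      have := hQper 0
      rw [zero_add] at this
      show rl (Q n) = rl (Q 0)
      rw [this]) (fun k _ => by
      obtain ⟨a1, a2, a3, a5, a4⟩ := hrl (Q k) (hQ1 k)
      refine ⟨?_, a3⟩
      rw [← hQlam]
      exact a5)
    refine Eq.trans (Finset.sum_congr rfl fun k _ => ?_) h1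
    rw [eps_eq hde]

end Vale.Agent.P032.S5.EndX
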